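import Vale.Agent.P287.R2.H622.Planes28

/-!
P287 (helper62, row R4 of helper622): counting planes when no two planes are disjoint.
-/

namespace Vale.Agent.P287.R2.H62

open Module Submodule
open Vale.Agent.P287.R2.H248 Vale.Agent.P287.R2.H622

/-- two planes which are not disjoint, not equal and do not meet in a line meet in a point -/
theorem finrank_one {P Q : Submodule ℂ A6} (hP : finrank ℂ P = 3) (hQ : finrank ℂ Q = 3)
    (hne : P ≠ Q) (hd : ¬ Disjoint P Q) (hm : ¬ Meet P Q) : finrank ℂ ↥(P ⊓ Q) = 1 := by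
  have h1 : finrank ℂ ↥(P ⊓ Q) ≤ 3 := hP ▸ Submodule.finrank_mono inf_le_left
  have h0 : finrank ℂ ↥(P ⊓ Q) ≠ 0 := by
    intro h
    exact hd (disjoint_iff.2 (Submodule.finrank_eq_zero.1 h))
  have h2 : finrank ℂ ↥(P ⊓ Q) ≠ 2 := hm
  have h3 : finrank ℂ ↥(P ⊓ Q) ≠ 3 := by
    intro h
    have e1 : P ⊓ Q = P := Submodule.eq_of_le_of_finrank_eq inf_le_left (h.trans hP.symm)
    have e2 : P ⊓ Q = Q := Submodule.eq_of_le_of_finrank_eq inf_le_right (h.trans hQ.symm)
    exact hne (e1.symm.trans e2)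
  omega

theorem meet_symm {P Q : Submodule ℂ A6} (h : Meet P Q) : Meet Q P := by
  unfold Meet at h ⊢
  rw [inf_comm]
  exact h

/-- no two planes of the set meet in a line -/
def NM (t : Finset (Submodule ℂ A6)) : Prop := ∀ P ∈ t, ∀ Q ∈ t, P ≠ Q → ¬ Meet P Q

/-- **Row R4.** -/
theorem le_41 {F : MvPolynomial (Fin 6) ℂ} (hF : IsCubicFourfold F)
    (hno : ∀ P Q, IsPlaneIn F P → IsPlaneIn F Q → ¬ Disjoint P Q)
    (hI : ∀ (N : ℕ) (p : Fin N → Submodule ℂ A6), (∀ i, IsPlaneIn F (p i)) →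
      (∀ i j, i ≠ j → finrank ℂ ↥(p i ⊓ p j) = 1) → N ≤ 20)
    (s : Finset (Submodule ℂ A6)) (hs : ∀ P ∈ s, IsPlaneIn F P) : s.card ≤ 41 := by
  classical
  -- sets of planes which do not meet in lines
  have key : ∀ t : Finset (Submodule ℂ A6), (∀ P ∈ t, IsPlaneIn F P) →
      (∀ P ∈ t, ∀ Q ∈ t, P ≠ Q → ¬ Meet P Q) → t.card ≤ 20 := by
    intro t ht hm
    refine hI t.card (fun i => (t.equivFin.symm i).1) (fun i => ht _ (t.equivFin.symm i).2) ?_
    intro i j hij
    have hne : (t.equivFin.symm i).1 ≠ (t.equivFin.symm j).1 := by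
      intro h
      exact hij (t.equivFin.symm.injective (Subtype.ext h))
    have h1 := ht _ (t.equivFin.symm i).2
    have h2 := ht _ (t.equivFin.symm j).2
    exact finrank_one h1.1 h2.1 hne (hno _ _ h1 h2)
      (hm _ (t.equivFin.symm i).2 _ (t.equivFin.symm j).2 hne)
  by_cases hmeet : ∃ P Q, IsPlaneIn F P ∧ IsPlaneIn F Q ∧ finrank ℂ ↥(P ⊓ Q) = 2
  swap
  · have h1 := key s hs (fun P hP Q hQ _ hm => hmeet ⟨P, Q, hs P hP, hs Q hQ, hm⟩)
    omega
  by_cases hndg : ∀ P, IsPlaneIn F P → ∃ Q, IsPlaneIn F Q ∧ Q ≠ P ∧ finrank ℂ ↥(P ⊓ Q) ≠ 2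
  · by_contra hcon
    obtain ⟨P, Q, hP, hQ, hd⟩ := exists_disjoint_of_28 hF s (by omega) hs hmeet hndg
    exact hno P Q hP hQ hd
  push Not at hndg
  obtain ⟨P₀, hP₀, hall⟩ := hndg
  -- the third plane of the line through `P₀` and `Q`
  have hth : ∀ Q, ∃ R, IsPlaneIn F Q → Q ≠ P₀ →
      ∀ S', IsPlaneIn F S' → S' ≠ P₀ → S' ≠ Q → Meet S' Q → S' = R := by
    intro Q
    by_cases hQ : IsPlaneIn F Q ∧ Q ≠ P₀
    · obtain ⟨R, hR, h1, h2, h3, h4, h5⟩ := third hF hno hP₀ hQ.1 (hall Q hQ.1 hQ.2)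
      refine ⟨R, fun _ _ S' hS h6 h7 h8 => ?_⟩
      by_contra h9
      have h10 := (h5 S' hS h6 h7 h9).2.1
      exact h10 ⟨meet_symm (hall S' hS h6), h8⟩
    · exact ⟨⊥, fun h1 h2 => absurd ⟨h1, h2⟩ hQ⟩
  choose τ hτ using hth
  set s' := s.erase P₀ with hs'
  have hs'F : ∀ P ∈ s', IsPlaneIn F P := fun P hP => hs P (Finset.mem_of_mem_erase hP)
  have hs'0 : ∀ P ∈ s', P ≠ P₀ := fun P hP => Finset.ne_of_mem_erase hP
  -- a largest set without meeting planes
  set 𝒯 := s'.powerset.filter (fun t => NM t) with h𝒯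
  have hne : 𝒯.Nonempty := by
    refine ⟨∅, ?_⟩
    rw [h𝒯, Finset.mem_filter, Finset.mem_powerset]
    exact ⟨Finset.empty_subset _, fun P hP => absurd hP (Finset.notMem_empty P)⟩
  obtain ⟨t, ht, hmax⟩ := Finset.exists_max_image 𝒯 (fun t => t.card) hne
  rw [h𝒯, Finset.mem_filter, Finset.mem_powerset] at ht
  have hsub : s' ⊆ t ∪ t.image τ := by
    intro Q hQ
    by_cases hQt : Q ∈ t
    · exact Finset.mem_union_left _ hQt
    · apply Finset.mem_union_right
      rw [Finset.mem_image]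
      by_contra hcon
      push Not at hcon
      have hn : ∀ P ∈ t, ¬ Meet Q P := by
        intro P hP hm
        have hP' := ht.1 hP
        have hne : Q ≠ P := fun h => hQt (h ▸ hP)
        exact hcon P hP (hτ P (hs'F P hP') (hs'0 P hP') Q (hs'F Q hQ) (hs'0 Q hQ) hne hm).symm
      have hins : insert Q t ∈ 𝒯 := by
        rw [h𝒯, Finset.mem_filter, Finset.mem_powerset]
        refine ⟨Finset.insert_subset hQ ht.1, ?_⟩
        intro A hA B hB hAB
        rcases Finset.mem_insert.1 hA with rfl | hA'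
        · rcases Finset.mem_insert.1 hB with rfl | hB'
          · exact absurd rfl hAB
          · exact hn B hB'
        · rcases Finset.mem_insert.1 hB with rfl | hB'
          · exact fun h => hn A hA' (meet_symm h)
          · exact ht.2 A hA' B hB' hAB
      have h1 := hmax _ hins
      rw [Finset.card_insert_of_notMem hQt] at h1
      omega
  have h20 := key t (fun P hP => hs'F P (ht.1 hP)) ht.2
  have h1 := Finset.card_le_card hsub
  have h2 := Finset.card_union_le t (t.image τ)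
  have h3 := Finset.card_image_le (s := t) (f := τ)
  have h4 : s.card ≤ s'.card + 1 := by
    have h5 : s ⊆ insert P₀ s' := by
      intro x hx
      rw [Finset.mem_insert]
      by_cases h6 : x = P₀
      · exact Or.inl h6
      · exact Or.inr (Finset.mem_erase.2 ⟨h6, hx⟩)
    exact (Finset.card_le_card h5).trans (Finset.card_insert_le _ _)
  omega

end Vale.Agent.P287.R2.H62
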