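import Vale.Agent.P287.R2.H622.Geo
import Vale.Agent.P287.R2.H248.Defs

/-!
P287 (helper62, row S2b of helper992): every plane of an explicit cubic fourfold contains its
Eckardt point.
-/

namespace Vale.Agent.P287.R2.H62

open Module Submodule MvPolynomial
open Vale.Agent.P287.R2.H248 Vale.Agent.P287.R2.H622

/-- the explicit cubic form -/
noncomputable def G0 : MvPolynomial (Fin 6) ℂ :=
  X 0 ^ 3 + X 1 ^ 3 + X 2 ^ 3 + X 3 ^ 3 + X 4 * X 5 ^ 2 + X 4 ^ 2 * (X 1 + C 2 * X 2 + C 3 * X 3)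

/-- the first four coordinates -/
def cc : Fin 4 → Fin 6 := ![0, 1, 2, 3]

/-- the coefficients of the linear form -/
def lc : Fin 4 → ℂ := ![0, 1, 2, 3]

lemma lc_ne (i j : Fin 4) (h : i ≠ j) : lc i ^ 3 ≠ lc j ^ 3 := by
  fin_cases i <;> fin_cases j <;> simp_all [lc] <;> norm_num

lemma eval_G0 (x : A6) : eval x G0 = ∑ k, x (cc k) ^ 3 + x 4 * x 5 ^ 2 +
    x 4 ^ 2 * ∑ k, lc k * x (cc k) := by
  simp only [G0, Fin.sum_univ_four, cc, lc, map_add, map_mul, map_pow, eval_X, eval_C,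
    Matrix.cons_val_zero, Matrix.cons_val_one, Matrix.cons_val]
  ring

lemma exists_ker {n m : ℕ} {U : Submodule ℂ A6} (hU : finrank ℂ U = m) (hn : n < m)
    (f : A6 →ₗ[ℂ] (Fin n → ℂ)) : ∃ x ∈ U, x ≠ 0 ∧ f x = 0 := by
  have h : LinearMap.ker (f.domRestrict U) ≠ ⊥ :=
    LinearMap.ker_ne_bot_of_finrank_lt (by rw [hU, finrank_fin_fun]; exact hn)
  obtain ⟨x, hx, hx0⟩ := Submodule.exists_mem_ne_zero_of_ne_bot h
  refine ⟨x, x.2, fun h0 => hx0 (Subtype.ext h0), ?_⟩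
  exact hx

/-- a vector with vanishing first five coordinates -/
lemma eq_zero_of {P : Submodule ℂ A6} (h5 : (Pi.single 5 1 : A6) ∉ P) {x : A6} (hx : x ∈ P)
    (h : ∀ k, x (cc k) = 0) (h4 : x 4 = 0) : x = 0 := by
  have h1 : x = x 5 • (Pi.single 5 1 : A6) := by
    funext i
    have h0 := h 0
    have h1 := h 1
    have h2 := h 2
    have h3 := h 3
    fin_cases i
    · simpa [cc] using h0
    · simpa [cc] using h1
    · simpa [cc] using h2
    · simpa [cc] using h3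
    · simpa using h4
    · simp
  have h2 : x 5 = 0 := by
    by_contra hne
    rw [h1] at hx
    exact h5 ((P.smul_mem_iff hne).mp hx)
  rw [h1, h2, zero_smul]

/-- the three relations on a line `y + r z` -/
lemma rel_r {P : Submodule ℂ A6} (hP : ∀ v ∈ P, eval v G0 = 0) {y z : A6} (hy : y ∈ P)
    (hz : z ∈ P) (hy4 : y 4 = 0) (hz4 : z 4 = 1) :
    3 * ∑ k, y (cc k) ^ 2 * z (cc k) + y 5 ^ 2 = 0 ∧
      3 * ∑ k, y (cc k) * z (cc k) ^ 2 + 2 * y 5 * z 5 + ∑ k, lc k * y (cc k) = 0 := by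
  have h0 := hP y hy
  have hr : ∀ r : ℂ, eval (y + r • z) G0 = 0 := fun r => hP _ (P.add_mem hy (P.smul_mem r hz))
  have h1 := hr 1
  have h2 := hr (-1)
  have h3 := hr 2
  rw [eval_G0] at h0 h1 h2 h3
  simp only [Pi.add_apply, Pi.smul_apply, smul_eq_mul, hy4, hz4, Fin.sum_univ_four] at h0 h1 h2 h3 ⊢
  constructor
  · linear_combination (-1 / 2 : ℂ) * h0 + h1 - (1 / 3 : ℂ) * h2 - (1 / 6 : ℂ) * h3
  · linear_combination (1 / 2 : ℂ) * h1 + (1 / 2 : ℂ) * h2 - h0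

/-- polarization on the first four coordinates -/
lemma rel_two {P : Submodule ℂ A6} (hP : ∀ v ∈ P, eval v G0 = 0) {y z : A6} (hy : y ∈ P)
    (hz : z ∈ P) (hy4 : y 4 = 0) (hz4 : z 4 = 0) :
    ∑ k, y (cc k) ^ 2 * z (cc k) = 0 := by
  have h0 := hP y hy
  have h4 := hP z hz
  have hr : ∀ r : ℂ, eval (y + r • z) G0 = 0 := fun r => hP _ (P.add_mem hy (P.smul_mem r hz))
  have h1 := hr 1
  have h2 := hr (-1)
  rw [eval_G0] at h0 h1 h2 h4
  simp only [Pi.add_apply, Pi.smul_apply, smul_eq_mul, hy4, hz4, Fin.sum_univ_four] at h0 h1 h2 h4 ⊢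
  linear_combination (1 / 6 : ℂ) * h1 - (1 / 6 : ℂ) * h2 - (1 / 3 : ℂ) * h4

/-- the arithmetic of the two relations -/
lemma arith {s w a b l m : ℂ} (hs : s ≠ 0) (h : s ^ 3 + w ^ 3 = 0)
    (h1 : s ^ 2 * a + w ^ 2 * b = 0) (h2 : 3 * (s * a ^ 2 + w * b ^ 2) + (l * s + m * w) = 0) :
    l ^ 3 = m ^ 3 := by
  have h3 : s ^ 3 * (s * a ^ 2 + w * b ^ 2) = 0 := by
    linear_combination (s ^ 2 * a - w ^ 2 * b) * h1 + (w * b ^ 2) * h
  have h4 : s * a ^ 2 + w * b ^ 2 = 0 := (mul_eq_zero.mp h3).resolve_left (pow_ne_zero 3 hs)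
  have h5 : l * s + m * w = 0 := by linear_combination h2 - 3 * h4
  have h6 : s ^ 3 * (l ^ 3 - m ^ 3) = 0 := by
    linear_combination (l ^ 2 * s ^ 2 - l * s * m * w + m ^ 2 * w ^ 2) * h5 - m ^ 3 * h
  exact sub_eq_zero.mp ((mul_eq_zero.mp h6).resolve_left (pow_ne_zero 3 hs))

/-- the case of a plane in the tangent hyperplane -/
lemma case_tangent {P : Submodule ℂ A6} (hP3 : finrank ℂ P = 3) (hP : ∀ v ∈ P, eval v G0 = 0)
    (h5 : (Pi.single 5 1 : A6) ∉ P) (h4 : ∀ x ∈ P, x 4 = 0) : False := by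
  have hcube : ∀ x ∈ P, x 0 ^ 3 + x 1 ^ 3 + x 2 ^ 3 + x 3 ^ 3 = 0 := by
    intro x hx
    have h := hP x hx
    rw [eval_G0] at h
    simp only [h4 x hx, Fin.sum_univ_four] at h
    simp only [cc, Matrix.cons_val_zero, Matrix.cons_val_one, Matrix.cons_val] at h
    linear_combination h
  have hpol : ∀ x ∈ P, ∀ z ∈ P,
      x 0 ^ 2 * z 0 + x 1 ^ 2 * z 1 + x 2 ^ 2 * z 2 + x 3 ^ 2 * z 3 = 0 := by
    intro x hx z hz
    have h := rel_two hP hx hz (h4 x hx) (h4 z hz)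
    simp only [Fin.sum_univ_four, cc, Matrix.cons_val_zero, Matrix.cons_val_one,
      Matrix.cons_val] at h
    exact h
  have hzero : ∀ x ∈ P, x 0 = 0 → x 1 = 0 → x 2 = 0 → x 3 = 0 → x = 0 := by
    intro x hx e0 e1 e2 e3
    refine eq_zero_of h5 hx ?_ (h4 x hx)
    intro k
    fin_cases k
    · exact e0
    · exact e1
    · exact e2
    · exact e3
  obtain ⟨x, hx, hx0, hf⟩ := exists_ker (n := 2) hP3 (by norm_num)
    (LinearMap.pi ![LinearMap.proj 0, LinearMap.proj 1])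
  have x0 : x 0 = 0 := by simpa using congrFun hf 0
  have x1 : x 1 = 0 := by simpa using congrFun hf 1
  have hc := hcube x hx
  rw [x0, x1] at hc
  have x2 : x 2 ≠ 0 := by
    intro h
    rw [h] at hc
    have h3 : x 3 = 0 := by
      have : x 3 ^ 3 = 0 := by linear_combination hc
      exact pow_eq_zero_iff (three_ne_zero) |>.mp this
    exact hx0 (hzero x hx x0 x1 h h3)
  -- third and second coordinates are proportional on the plane
  have hprop : ∀ z ∈ P, z 2 = 0 → z 3 = 0 := by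
    intro z hz h
    have h1 := hpol x hx z hz
    rw [x0, x1, h] at h1
    have h2 : x 3 ^ 2 * z 3 = 0 := by linear_combination h1
    have x3 : x 3 ≠ 0 := by
      intro h3
      rw [h3] at hc
      have : x 2 ^ 3 = 0 := by linear_combination hc
      exact x2 ((pow_eq_zero_iff (three_ne_zero)).mp this)
    exact (mul_eq_zero.mp h2).resolve_left (pow_ne_zero 2 x3)
  obtain ⟨z, hz, hz0, hg⟩ := exists_ker (n := 2) hP3 (by norm_num)
    (LinearMap.pi ![LinearMap.proj 0, LinearMap.proj 2])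
  have z0 : z 0 = 0 := by simpa using congrFun hg 0
  have z2 : z 2 = 0 := by simpa using congrFun hg 1
  have z3 := hprop z hz z2
  have hc' := hcube z hz
  rw [z0, z2, z3] at hc'
  have z1 : z 1 = 0 := by
    have : z 1 ^ 3 = 0 := by linear_combination hc'
    exact (pow_eq_zero_iff (three_ne_zero)).mp this
  exact hz0 (hzero z hz z0 z1 z2 z3)

/-- **Row S2b.** -/
theorem contains_e5
    (hS2a : ∀ W : Submodule ℂ A6, finrank ℂ W = 2 → ∀ y : Fin 4 → W →ₗ[ℂ] ℂ,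
      (∀ x, (∀ i, y i x = 0) → x = 0) → (∀ x, ∑ i, y i x ^ 3 = 0) →
      ∃ σ : Equiv.Perm (Fin 4), (∀ x, y (σ 0) x ^ 3 + y (σ 1) x ^ 3 = 0) ∧
        ∀ x, y (σ 2) x ^ 3 + y (σ 3) x ^ 3 = 0)
    (P : Submodule ℂ A6) (hP : IsPlaneIn G0 P) : (Pi.single 5 1 : A6) ∈ P := by
  by_contra h5
  obtain ⟨hP3, hP⟩ := hP
  by_cases h4 : ∀ x ∈ P, x 4 = 0
  · exact case_tangent hP3 hP h5 h4
  push Not at h4
  obtain ⟨z', hz', hz4'⟩ := h4
  -- normalize
  obtain ⟨z, hz, hz4⟩ : ∃ z ∈ P, z 4 = 1 :=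
    ⟨(z' 4)⁻¹ • z', P.smul_mem _ hz', by simp [hz4']⟩
  set U : Submodule ℂ A6 := P ⊓ LinearMap.ker (LinearMap.proj 4 : A6 →ₗ[ℂ] ℂ) with hU
  have hU2 : finrank ℂ U = 2 := by
    have h : finrank ℂ ↥U + 1 = finrank ℂ P :=
      finrank_inf_ker (W := P) (l := (LinearMap.proj 4 : A6 →ₗ[ℂ] ℂ)) hz' hz4'
    rw [hP3] at h
    omega
  have hUP : ∀ x ∈ U, x ∈ P ∧ x 4 = 0 := fun x hx => ⟨hx.1, hx.2⟩
  have hU0 : ∀ x ∈ U, (∀ k, x (cc k) = 0) → x = 0 := fun x hx h =>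
    eq_zero_of h5 (hUP x hx).1 h (hUP x hx).2
  obtain ⟨σ, hσ1, hσ2⟩ := hS2a U hU2
    (fun k => (LinearMap.proj (cc k) : A6 →ₗ[ℂ] ℂ).domRestrict U)
    (fun x hx => Subtype.ext (hU0 x x.2 hx))
    (fun x => by
      have h := hP x (hUP x x.2).1
      rw [eval_G0, (hUP x x.2).2] at h
      have h' : ∑ k, (x : A6) (cc k) ^ 3 = 0 := by linear_combination h
      exact h')
  have hσ1' : ∀ x ∈ U, x (cc (σ 0)) ^ 3 + x (cc (σ 1)) ^ 3 = 0 := fun x hx => hσ1 ⟨x, hx⟩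
  have hσ2' : ∀ x ∈ U, x (cc (σ 2)) ^ 3 + x (cc (σ 3)) ^ 3 = 0 := fun x hx => hσ2 ⟨x, hx⟩
  -- the two vectors
  obtain ⟨u, hu, hu0, hfu⟩ := exists_ker (n := 1) hU2 (by norm_num)
    (LinearMap.pi ![LinearMap.proj (cc (σ 2))])
  have u2 : u (cc (σ 2)) = 0 := by simpa using congrFun hfu 0
  have u3 : u (cc (σ 3)) = 0 := by
    have h := hσ2' u hu
    rw [u2] at h
    have : u (cc (σ 3)) ^ 3 = 0 := by linear_combination h
    exact (pow_eq_zero_iff (three_ne_zero)).mp this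
  obtain ⟨v, hv, hv0, hfv⟩ := exists_ker (n := 1) hU2 (by norm_num)
    (LinearMap.pi ![LinearMap.proj (cc (σ 0))])
  have v0 : v (cc (σ 0)) = 0 := by simpa using congrFun hfv 0
  have v1 : v (cc (σ 1)) = 0 := by
    have h := hσ1' v hv
    rw [v0] at h
    have : v (cc (σ 1)) ^ 3 = 0 := by linear_combination h
    exact (pow_eq_zero_iff (three_ne_zero)).mp this
  have hall : ∀ x ∈ U, x (cc (σ 0)) = 0 → x (cc (σ 1)) = 0 → x (cc (σ 2)) = 0 →
      x (cc (σ 3)) = 0 → x = 0 := by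
    intro x hx e0 e1 e2 e3
    refine hU0 x hx fun k => ?_
    obtain ⟨j, rfl⟩ := σ.surjective k
    fin_cases j
    · exact e0
    · exact e1
    · exact e2
    · exact e3
  have u0 : u (cc (σ 0)) ≠ 0 := by
    intro h
    have h1 := hσ1' u hu
    rw [h] at h1
    have h3 : u (cc (σ 1)) ^ 3 = 0 := by linear_combination h1
    exact hu0 (hall u hu h ((pow_eq_zero_iff (three_ne_zero)).mp h3) u2 u3)
  have v2 : v (cc (σ 2)) ≠ 0 := by
    intro h
    have h1 := hσ2' v hv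
    rw [h] at h1
    have h3 : v (cc (σ 3)) ^ 3 = 0 := by linear_combination h1
    exact hv0 (hall v hv v0 v1 h ((pow_eq_zero_iff (three_ne_zero)).mp h3))
  -- the relations, in the order of `σ`
  have hsum : ∀ f : Fin 4 → ℂ, ∑ k, f k = f (σ 0) + f (σ 1) + f (σ 2) + f (σ 3) := by
    intro f
    rw [← Equiv.sum_comp σ f, Fin.sum_univ_four]
  have hE : ∀ x ∈ U, (3 * ∑ k, x (cc k) ^ 2 * z (cc k) + x 5 ^ 2 = 0) ∧
      3 * ∑ k, x (cc k) * z (cc k) ^ 2 + 2 * x 5 * z 5 + ∑ k, lc k * x (cc k) = 0 :=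
    fun x hx => rel_r hP (hUP x hx).1 hz (hUP x hx).2 hz4
  obtain ⟨Eu1, Eu2⟩ := hE u hu
  obtain ⟨Ev1, Ev2⟩ := hE v hv
  obtain ⟨Ew1, -⟩ := hE (u + v) (U.add_mem hu hv)
  simp only [hsum, Pi.add_apply, u2, u3, v0, v1] at Eu1 Eu2 Ev1 Ev2 Ew1
  have huv : u 5 * v 5 = 0 := by
    linear_combination (1 / 2 : ℂ) * (Ew1 - Eu1 - Ev1)
  have hσ01 : σ 0 ≠ σ 1 := fun h => by simpa using σ.injective h
  have hσ23 : σ 2 ≠ σ 3 := fun h => by simpa using σ.injective h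
  rcases mul_eq_zero.mp huv with h | h
  · rw [h] at Eu1 Eu2
    refine lc_ne _ _ hσ01 (arith u0 (hσ1' u hu) (a := z (cc (σ 0))) (b := z (cc (σ 1))) ?_ ?_)
    · linear_combination (1 / 3 : ℂ) * Eu1
    · linear_combination Eu2
  · rw [h] at Ev1 Ev2
    refine lc_ne _ _ hσ23 (arith v2 (hσ2' v hv) (a := z (cc (σ 2))) (b := z (cc (σ 3))) ?_ ?_)
    · linear_combination (1 / 3 : ℂ) * Ev1
    · linear_combination Ev2

end Vale.Agent.P287.R2.H62
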