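import Vale.Agent.P287.R2.H62.NotMemGen

/-!
P287 (helper62): a plane of a smooth cubic fourfold which meets each of `N` planes in a line, where
the `N` planes meet pairwise in a point: `N + 1` is at most twenty.
-/

namespace Vale.Agent.P287.R2.H62

open Module Submodule
open Vale.Agent.P287.R2.H248 Vale.Agent.P287.R2.H622

variable {V : Type*} [AddCommGroup V] [Module ℂ V] {S : Tri V}

/-- the form of a plane is not in the Jacobian ideal on the plane -/
theorem not_mem_frame [FiniteDimensional ℂ V] (hV : finrank ℂ V = 6) (hS : S.Smooth)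
    {Q : Submodule ℂ V} (hQ : Pl S Q) {e0 f : Basis (Fin 3 ⊕ Fin 3) ℂ V}
    (hf : ∀ i, f (Sum.inl i) ∈ Q) (hf1 : e0.det f = 1) : dl S f ∉ JS S Q := by
  obtain ⟨e, he, hd, g1, g2⟩ := exists_flag_frame hV e0 hQ.1 (fun v => S.T v v)
    (fun v _ hv h => hv (hS v fun w => by rw [h]; rfl))
    (fun v hv w hw => hQ.2.two hv hw)
  intro h
  apply not_mem_flag hS hQ e he g1 g2
  have k2 : dl S e - dl S f ∈ JS S Q := frame_two hQ hf he hf1 hd
  have h6 := (JS S Q).add_mem k2 h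
  rwa [sub_add_cancel] at h6

/-- the forms of two planes that meet in a line, on the second plane -/
lemma line_forms [FiniteDimensional ℂ V] (hV : finrank ℂ V = 6)
    {P Q : Submodule ℂ V} (hP : Pl S P) (hQ : Pl S Q) (hPQ : finrank ℂ ↥(P ⊓ Q) = 2)
    {e0 f f' : Basis (Fin 3 ⊕ Fin 3) ℂ V} (hf : ∀ i, f (Sum.inl i) ∈ P)
    (hf' : ∀ i, f' (Sum.inl i) ∈ Q) (hf1 : e0.det f = 1) (hf1' : e0.det f' = 1) :
    dl S f' + (2 : ℂ) • dl S f ∈ JS S Q := by
  obtain ⟨e, e', he, he', hd, hd', h0, h1, h2, h3, h4, h5⟩ :=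
    exists_line_frame hV e0 hP.1 hQ.1 hPQ
  have k1 : dl S e - dl S f ∈ JS S Q := frame_two hP hf he hf1 hd
  have k2 : dl S e' - dl S f' ∈ JS S Q := frame_two hQ hf' he' hf1' hd'
  have k3 : dl S e' + (2 : ℂ) • dl S e ∈ JS S Q :=
    line_identity hP hQ e e' he he' h0 h1 h2 h3 h4 h5
  have h6 := (JS S Q).sub_mem ((JS S Q).sub_mem k3 k2) ((JS S Q).smul_mem (2 : ℂ) k1)
  have h7 : dl S f' + (2 : ℂ) • dl S f =
      (dl S e' + (2 : ℂ) • dl S e - (dl S e' - dl S f')) - (2 : ℂ) • (dl S e - dl S f) := by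
    rw [smul_sub]
    abel
  rw [h7]
  exact h6

/-- the linear algebra behind the relations -/
lemma rel_point {M : Type*} [AddCommGroup M] [Module ℂ M] (J : Submodule ℂ M) {N : ℕ}
    (D0 : M) (D : Fin N → M) (i : Fin N) (c0 : ℂ) (c : Fin N → ℂ)
    (h1 : ∀ j, j ≠ i → D i - (4 : ℂ) • D j ∈ J) (h0 : D i + (2 : ℂ) • D0 ∈ J)
    (hr : c0 • D0 + ∑ j, c j • D j ∈ J) : (3 * c i + ∑ j, c j - 2 * c0) • D i ∈ J := by
  classical
  have h2 : ∀ j, c j • (D i - (4 : ℂ) • D j) + (if j = i then (3 * c i) • D i else 0) ∈ J := by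
    intro j
    by_cases hj : j = i
    · subst hj
      rw [if_pos rfl]
      have h3 : c j • (D j - (4 : ℂ) • D j) + (3 * c j) • D j = 0 := by
        module
      rw [h3]
      exact J.zero_mem
    · rw [if_neg hj, add_zero]
      exact J.smul_mem _ (h1 j hj)
  have h3 := J.sub_mem (J.add_mem (J.sum_mem fun j (_ : j ∈ Finset.univ) => h2 j)
    (J.smul_mem (4 : ℂ) hr)) (J.smul_mem (2 * c0) h0)
  have h4 : ∑ j, (c j • (D i - (4 : ℂ) • D j) + (if j = i then (3 * c i) • D i else 0)) +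
      (4 : ℂ) • (c0 • D0 + ∑ j, c j • D j) - (2 * c0) • (D i + (2 : ℂ) • D0) =
      (3 * c i + ∑ j, c j - 2 * c0) • D i := by
    rw [Finset.sum_add_distrib, Finset.sum_ite_eq' Finset.univ i, if_pos (Finset.mem_univ i)]
    simp only [smul_sub, Finset.sum_sub_distrib, ← Finset.sum_smul]
    rw [smul_add, Finset.smul_sum]
    have h5 : ∀ j, c j • (4 : ℂ) • D j = (4 : ℂ) • c j • D j := fun j => smul_comm _ _ _
    simp only [h5]
    module
  rwa [h4] at h3

lemma rel_line {M : Type*} [AddCommGroup M] [Module ℂ M] (J : Submodule ℂ M) {N : ℕ}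
    (D0 : M) (D : Fin N → M) (c0 : ℂ) (c : Fin N → ℂ)
    (h1 : ∀ j, D0 + (2 : ℂ) • D j ∈ J)
    (hr : c0 • D0 + ∑ j, c j • D j ∈ J) : (2 * c0 - ∑ j, c j) • D0 ∈ J := by
  have h2 : ∀ j, c j • (D0 + (2 : ℂ) • D j) ∈ J := fun j => J.smul_mem _ (h1 j)
  have h3 := J.sub_mem (J.smul_mem (2 : ℂ) hr) (J.sum_mem fun j (_ : j ∈ Finset.univ) => h2 j)
  have h4 : (2 : ℂ) • (c0 • D0 + ∑ j, c j • D j) - ∑ j, c j • (D0 + (2 : ℂ) • D j) =
      (2 * c0 - ∑ j, c j) • D0 := by
    simp only [smul_add, Finset.sum_add_distrib, ← Finset.sum_smul]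
    rw [Finset.smul_sum]
    have h5 : ∀ j, c j • (2 : ℂ) • D j = (2 : ℂ) • c j • D j := fun j => smul_comm _ _ _
    simp only [h5]
    module
  rwa [h4] at h3

theorem le_nineteen [FiniteDimensional ℂ V] (hV : finrank ℂ V = 6) (hS : S.Smooth) {N : ℕ}
    (p : Fin N → Submodule ℂ V) (P₀ : Submodule ℂ V) (hP₀ : Pl S P₀) (hp : ∀ i, Pl S (p i))
    (hmeet : ∀ i j, i ≠ j → finrank ℂ ↥(p i ⊓ p j) = 1)
    (hline : ∀ i, finrank ℂ ↥(P₀ ⊓ p i) = 2) : N ≤ 19 := by
  classical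
  have hmain : N + 1 ≤ 20 := by
    let e0 : Basis (Fin 3 ⊕ Fin 3) ℂ V :=
      (finBasisOfFinrankEq ℂ V hV).reindex (finSumFinEquiv (m := 3) (n := 3)).symm
    have hfr : ∀ i, ∃ e : Basis (Fin 3 ⊕ Fin 3) ℂ V, (∀ l, e (Sum.inl l) ∈ p i) ∧ e0.det e = 1 :=
      fun i => H414.exists_frame hV e0 (hp i).1
    choose f hf hf1 using hfr
    obtain ⟨f0, hf0, hf01⟩ := H414.exists_frame hV e0 hP₀.1
    refine H414.count hV S (fun A hA => H992.no_syz hS A hA)
      (Fin.cons (dl S f0) fun j => dl S (f j)) ?_ ?_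
    · intro j
      refine Fin.cases ?_ (fun i => ?_) j
      · rw [Fin.cons_zero]
        exact H414.dl_mem S f0
      · rw [Fin.cons_succ]
        exact H414.dl_mem S (f i)
    · intro c A hA
      have hA' : ∀ Q : Submodule ℂ V,
          c 0 • dl S f0 + ∑ j, c (Fin.succ j) • dl S (f j) ∈ JS S Q := by
        intro Q
        refine ⟨A, fun x _ => ?_⟩
        rw [← hA x, Fin.sum_univ_succ, Pi.add_apply, Finset.sum_apply]
        rfl
      set c0 := c 0
      set c' : Fin N → ℂ := fun j => c (Fin.succ j)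
      have hrel : ∀ i, 3 * c' i + ∑ j, c' j - 2 * c0 = 0 := by
        intro i
        by_contra hne
        have h1 := rel_point (JS S (p i)) (dl S f0) (fun j => dl S (f j)) i c0 c'
          (fun j hj => (pair_forms hV hS (hp j) (hp i) (hmeet j i hj) (hf j) (hf i) (hf1 j)
            (hf1 i)).1)
          (line_forms hV hP₀ (hp i) (hline i) hf0 (hf i) hf01 (hf1 i)) (hA' (p i))
        exact not_mem_frame hV hS (hp i) (hf i) (hf1 i) (((JS S (p i)).smul_mem_iff hne).mp h1)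
      have hrel0 : 2 * c0 - ∑ j, c' j = 0 := by
        by_contra hne
        have h1 := rel_line (JS S P₀) (dl S f0) (fun j => dl S (f j)) c0 c'
          (fun j => line_forms hV (hp j) hP₀ (by rw [inf_comm]; exact hline j) (hf j) hf0 (hf1 j)
            hf01) (hA' P₀)
        exact not_mem_frame hV hS hP₀ hf0 hf01 (((JS S P₀).smul_mem_iff hne).mp h1)
      have hc' : ∀ i, c' i = 0 := by
        intro i
        have h1 := hrel i
        linear_combination (1 / 3 : ℂ) * (h1 + hrel0)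
      have hc0 : c0 = 0 := by
        have h1 : ∑ j, c' j = 0 := Finset.sum_eq_zero fun j _ => hc' j
        rw [h1] at hrel0
        linear_combination (1 / 2 : ℂ) * hrel0
      intro j
      exact Fin.cases hc0 hc' j
  omega

end Vale.Agent.P287.R2.H62
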