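import Vale.Agent.P287.R2.H992.Good
import Vale.Agent.P287.R2.H62.Nineteen

/-!
P287 (helper62, row T of helper992): the planes in pairwise different good directions meet pairwise
in one point.
-/

namespace Vale.Agent.P287.R2.H62

open Module Submodule
open Vale.Agent.P287.R2.H248 Vale.Agent.P287.R2.H622 Vale.Agent.P287.R2.H992

variable {V : Type*} [AddCommGroup V] [Module ℂ V] [FiniteDimensional ℂ V] {S : Tri V}

/-- a plane in the span of `P` and `w` -/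
lemma sup_of_good {P A : Submodule ℂ V} (hP : Pl S P) (hA : Pl S A) {w : V} (hw : w ∉ P)
    (hAw : A ≤ P ⊔ span ℂ {w}) (hne : A ≠ P) :
    P ⊔ A = P ⊔ span ℂ {w} ∧ finrank ℂ ↥(P ⊓ A) = 2 := by
  have h4 : finrank ℂ ↥(P ⊔ span ℂ {w}) = 4 := by
    rw [finrank_sup_single hw, hP.1]
  have hle : P ⊔ A ≤ P ⊔ span ℂ {w} := sup_le le_sup_left hAw
  have h1 := Submodule.finrank_sup_add_finrank_inf_eq P A
  rw [hP.1, hA.1] at h1
  have h2 : finrank ℂ ↥(P ⊔ A) ≤ 4 := h4 ▸ Submodule.finrank_mono hle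
  have h3 : finrank ℂ ↥(P ⊓ A) ≤ 3 := by
    have := Submodule.finrank_mono (inf_le_left : P ⊓ A ≤ P)
    rwa [hP.1] at this
  have h5 : finrank ℂ ↥(P ⊓ A) ≠ 3 := by
    intro h
    have e1 : P ⊓ A = P := Submodule.eq_of_le_of_finrank_eq inf_le_left (by rw [h, hP.1])
    have e2 : P ⊓ A = A := Submodule.eq_of_le_of_finrank_eq inf_le_right (by rw [h, hA.1])
    exact hne (e2.symm.trans e1)
  have h6 : finrank ℂ ↥(P ⊓ A) = 2 := by omega
  refine ⟨Submodule.eq_of_le_of_finrank_eq hle ?_, h6⟩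
  omega

/-- planes in different directions meet in one point -/
theorem meet_of_good (hV : finrank ℂ V = 6) (hS : S.Smooth) {P A B : Submodule ℂ V}
    (hP : Pl S P) (hA : Pl S A) (hB : Pl S B) {w w' : V} (hw : w ∉ P) (hw' : w' ∉ P)
    (hij : w' ∉ P ⊔ span ℂ {w}) (hAw : A ≤ P ⊔ span ℂ {w}) (hBw : B ≤ P ⊔ span ℂ {w'})
    (hAP : A ≠ P) (hBP : B ≠ P) : finrank ℂ ↥(A ⊓ B) = 1 := by
  obtain ⟨a1, a2⟩ := sup_of_good hP hA hw hAw hAP
  obtain ⟨b1, b2⟩ := sup_of_good hP hB hw' hBw hBP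
  have h4 : finrank ℂ ↥(P ⊔ A) = 4 := by
    rw [a1, finrank_sup_single hw, hP.1]
  have h4' : finrank ℂ ↥(P ⊔ B) = 4 := by
    rw [b1, finrank_sup_single hw', hP.1]
  have h5 : finrank ℂ ↥((P ⊔ A) ⊔ (P ⊔ B)) = 5 := by
    have h6 : (P ⊔ A) ⊔ (P ⊔ B) = (P ⊔ span ℂ {w}) ⊔ span ℂ {w'} := by
      rw [a1, b1]
      apply le_antisymm
      · exact sup_le le_sup_left (sup_le (le_sup_left.trans le_sup_left) le_sup_right)
      · exact sup_le le_sup_left (le_sup_right.trans le_sup_right)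
    rw [h6, finrank_sup_single hij, finrank_sup_single hw, hP.1]
  have h3 : finrank ℂ ↥((P ⊔ A) ⊓ (P ⊔ B)) = 3 := by
    have h7 := Submodule.finrank_sup_add_finrank_inf_eq (P ⊔ A) (P ⊔ B)
    rw [h5, h4, h4'] at h7
    omega
  have hPe : P = (P ⊔ A) ⊓ (P ⊔ B) :=
    Submodule.eq_of_le_of_finrank_eq (le_inf le_sup_left le_sup_left) (by rw [h3, hP.1])
  have hABP : A ⊓ B ≤ P := by
    rw [hPe]
    exact inf_le_inf le_sup_right le_sup_right
  have hAB : A ⊓ B = (P ⊓ A) ⊓ (P ⊓ B) := by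
    apply le_antisymm
    · exact le_inf (le_inf hABP inf_le_left) (le_inf hABP inf_le_right)
    · exact inf_le_inf inf_le_right inf_le_right
  have hne : P ⊓ A ≠ P ⊓ B := by
    intro heq
    refine no_line hV hS a2 (N := (P ⊔ A) ⊔ (P ⊔ B)) h5.ge ?_
    intro v hv
    have hv' : v ∈ P ⊓ B := heq ▸ hv
    exact sup_le (sup_le (le_tang hP.2 hv.1) (le_tang hA.2 hv.2))
      (sup_le (le_tang hP.2 hv.1) (le_tang hB.2 hv'.2))
  have h8 := Submodule.finrank_sup_add_finrank_inf_eq (P ⊓ A) (P ⊓ B)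
  rw [a2, b2, ← hAB] at h8
  have h9 : finrank ℂ ↥((P ⊓ A) ⊔ (P ⊓ B)) ≤ 3 := by
    have := Submodule.finrank_mono (sup_le inf_le_left inf_le_left : (P ⊓ A) ⊔ (P ⊓ B) ≤ P)
    rwa [hP.1] at this
  have h10 : 2 ≤ finrank ℂ ↥((P ⊓ A) ⊔ (P ⊓ B)) := by
    have := Submodule.finrank_mono (le_sup_left : P ⊓ A ≤ (P ⊓ A) ⊔ (P ⊓ B))
    rwa [a2] at this
  have h11 : finrank ℂ ↥((P ⊓ A) ⊔ (P ⊓ B)) ≠ 2 := by
    intro h
    have e1 : P ⊓ A = (P ⊓ A) ⊔ (P ⊓ B) :=
      Submodule.eq_of_le_of_finrank_eq le_sup_left (by rw [h, a2])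
    have e2 : P ⊓ B = (P ⊓ A) ⊔ (P ⊓ B) :=
      Submodule.eq_of_le_of_finrank_eq le_sup_right (by rw [h, b2])
    exact hne (e1.trans e2.symm)
  omega

/-- ROW T: at most nineteen directions. -/
theorem row_T19 (hV : finrank ℂ V = 6) (hS : S.Smooth) {P : Submodule ℂ V} (hP : Pl S P)
    (N : ℕ) (w : Fin N → V) (hw : ∀ i, w i ∉ P)
    (hij : ∀ i j, i ≠ j → w j ∉ P ⊔ span ℂ {w i}) (hg : ∀ i, Good S P (w i)) : N ≤ 19 := by
  choose A hA hAw hAP using hg
  refine le_nineteen hV hS A P hP hA ?_ ?_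
  · intro i j h
    exact meet_of_good hV hS hP (hA i) (hA j) (hw i) (hw j) (hij i j h) (hAw i) (hAw j) (hAP i)
      (hAP j)
  · intro i
    exact (sup_of_good hP (hA i) (hw i) (hAw i) (hAP i)).2

/-- ROW T: at most twenty directions. -/
theorem row_T (hV : finrank ℂ V = 6) (hS : S.Smooth) {P : Submodule ℂ V} (hP : Pl S P)
    (N : ℕ) (w : Fin N → V) (hw : ∀ i, w i ∉ P)
    (hij : ∀ i j, i ≠ j → w j ∉ P ⊔ span ℂ {w i}) (hg : ∀ i, Good S P (w i)) : N ≤ 20 :=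
  (row_T19 hV hS hP N w hw hij hg).trans (by norm_num)

/-- planes that meet `P` in lines and each other in points give good directions -/
theorem good_of_planes {P : Submodule ℂ V} (hP : Pl S P) {N : ℕ} (p : Fin N → Submodule ℂ V)
    (hp : ∀ i, Pl S (p i)) (hmeet : ∀ i j, i ≠ j → finrank ℂ ↥(p i ⊓ p j) = 1)
    (hline : ∀ i, finrank ℂ ↥(P ⊓ p i) = 2) :
    ∃ w : Fin N → V, (∀ i, w i ∉ P) ∧ (∀ i j, i ≠ j → w j ∉ P ⊔ span ℂ {w i}) ∧
      ∀ i, Good S P (w i) := by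
  have h1 : ∀ i, ∃ w, w ∈ p i ∧ w ∉ P := by
    intro i
    by_contra hcon
    push Not at hcon
    have h2 : P ⊓ p i = p i := inf_eq_right.mpr hcon
    have h3 := hline i
    rw [h2, (hp i).1] at h3
    omega
  choose w hwp hwP using h1
  -- the plane is spanned by its trace and the vector
  have h2 : ∀ i x, x ∉ P → x ∈ p i → p i ≤ P ⊔ span ℂ {x} := by
    intro i x hx hxi
    have hx' : x ∉ P ⊓ p i := fun h => hx h.1
    have h3 : finrank ℂ ↥((P ⊓ p i) ⊔ span ℂ {x}) = 3 := by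
      rw [finrank_sup_single hx', hline i]
    have h4 : (P ⊓ p i) ⊔ span ℂ {x} ≤ p i :=
      sup_le inf_le_right (by rw [span_le, Set.singleton_subset_iff]; exact hxi)
    have h5 : (P ⊓ p i) ⊔ span ℂ {x} = p i :=
      Submodule.eq_of_le_of_finrank_eq h4 (by rw [h3, (hp i).1])
    rw [← h5]
    exact sup_le_sup_right inf_le_left _
  refine ⟨w, hwP, ?_, ?_⟩
  · intro i j hij hcon
    have h4 : finrank ℂ ↥(P ⊔ span ℂ {w i}) = 4 := by
      rw [finrank_sup_single (hwP i), hP.1]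
    have h5 : p j ≤ P ⊔ span ℂ {w i} := by
      refine (h2 j (w j) (hwP j) (hwp j)).trans (sup_le le_sup_left ?_)
      rw [span_le, Set.singleton_subset_iff]
      exact hcon
    have h6 := Submodule.finrank_mono (sup_le (h2 i (w i) (hwP i) (hwp i)) h5)
    have h7 := Submodule.finrank_sup_add_finrank_inf_eq (p i) (p j)
    rw [(hp i).1, (hp j).1, hmeet i j hij] at h7
    rw [h4] at h6
    omega
  · intro i
    refine ⟨p i, hp i, h2 i (w i) (hwP i) (hwp i), ?_⟩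
    intro h
    have h3 := hline i
    rw [h, inf_idem, hP.1] at h3
    omega

end Vale.Agent.P287.R2.H62
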