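import Vale.Agent.P287.R2.H62.Forty
import Vale.Agent.P287.R2.H62.RowT

/-!
P287 (helper62): counting planes when no two planes are disjoint, sharp form (row T of helper992).
-/

namespace Vale.Agent.P287.R2.H62

open Module Submodule
open Vale.Agent.P287.R2.H248 Vale.Agent.P287.R2.H622 Vale.Agent.P287.R2.H992

/-- At most `1 + 2 m` planes (and at most 27 in the nondegenerate case), from the count for the
planes that meet one plane in lines. -/
theorem le_of_bound {F : MvPolynomial (Fin 6) ℂ} (hF : IsCubicFourfold F)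
    (hno : ∀ P Q, IsPlaneIn F P → IsPlaneIn F Q → ¬ Disjoint P Q) (m : ℕ)
    (hI' : ∀ (N : ℕ) (p : Fin N → Submodule ℂ A6) (P₀ : Submodule ℂ A6), IsPlaneIn F P₀ →
      (∀ i, IsPlaneIn F (p i)) → (∀ i j, i ≠ j → finrank ℂ ↥(p i ⊓ p j) = 1) →
      (∀ i, finrank ℂ ↥(P₀ ⊓ p i) = 2) → N ≤ m)
    (s : Finset (Submodule ℂ A6)) (hs : ∀ P ∈ s, IsPlaneIn F P) :
    s.card ≤ max 27 (1 + 2 * m) := by
  classical
  have hI := card_le_twenty hF
  have hmax27 : 27 ≤ max 27 (1 + 2 * m) := le_max_left _ _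
  have hmaxm : 1 + 2 * m ≤ max 27 (1 + 2 * m) := le_max_right _ _
  -- sets of planes which do not meet in lines
  have key : ∀ t : Finset (Submodule ℂ A6), (∀ P ∈ t, IsPlaneIn F P) →
      (∀ P ∈ t, ∀ Q ∈ t, P ≠ Q → ¬ Meet P Q) → t.card ≤ 20 := by
    intro t ht hm
    refine hI t.card (fun i => (t.equivFin.symm i).1) (fun i => ht _ (t.equivFin.symm i).2) ?_
    intro i j hij
    have hne : (t.equivFin.symm i).1 ≠ (t.equivFin.symm j).1 := by
      intro h
      exact hij (t.equivFin.symm.injective (Subtype.ext h))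
    have h1 := ht _ (t.equivFin.symm i).2
    have h2 := ht _ (t.equivFin.symm j).2
    exact finrank_one h1.1 h2.1 hne (hno _ _ h1 h2)
      (hm _ (t.equivFin.symm i).2 _ (t.equivFin.symm j).2 hne)
  by_cases hmeet : ∃ P Q, IsPlaneIn F P ∧ IsPlaneIn F Q ∧ finrank ℂ ↥(P ⊓ Q) = 2
  swap
  · have h1 := key s hs (fun P hP Q hQ _ hm => hmeet ⟨P, Q, hs P hP, hs Q hQ, hm⟩)
    omega
  by_cases hndg : ∀ P, IsPlaneIn F P → ∃ Q, IsPlaneIn F Q ∧ Q ≠ P ∧ finrank ℂ ↥(P ⊓ Q) ≠ 2
  · by_contra hcon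
    obtain ⟨P, Q, hP, hQ, hd⟩ := exists_disjoint_of_28 hF s (by omega) hs hmeet hndg
    exact hno P Q hP hQ hd
  push Not at hndg
  obtain ⟨P₀, hP₀, hall⟩ := hndg
  -- the third plane of the line through `P₀` and `Q`
  have hth : ∀ Q, ∃ R, IsPlaneIn F Q → Q ≠ P₀ →
      ∀ S', IsPlaneIn F S' → S' ≠ P₀ → S' ≠ Q → Meet S' Q → S' = R := by
    intro Q
    by_cases hQ : IsPlaneIn F Q ∧ Q ≠ P₀
    · obtain ⟨R, hR, h1, h2, h3, h4, h5⟩ := third hF hno hP₀ hQ.1 (hall Q hQ.1 hQ.2)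
      refine ⟨R, fun _ _ S' hS h6 h7 h8 => ?_⟩
      by_contra h9
      have h10 := (h5 S' hS h6 h7 h9).2.1
      exact h10 ⟨meet_symm (hall S' hS h6), h8⟩
    · exact ⟨⊥, fun h1 h2 => absurd ⟨h1, h2⟩ hQ⟩
  choose τ hτ using hth
  set s' := s.erase P₀ with hs'
  have hs'F : ∀ P ∈ s', IsPlaneIn F P := fun P hP => hs P (Finset.mem_of_mem_erase hP)
  have hs'0 : ∀ P ∈ s', P ≠ P₀ := fun P hP => Finset.ne_of_mem_erase hP
  -- a largest set without meeting planes
  set 𝒯 := s'.powerset.filter (fun t => NM t) with h𝒯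
  have hne : 𝒯.Nonempty := by
    refine ⟨∅, ?_⟩
    rw [h𝒯, Finset.mem_filter, Finset.mem_powerset]
    exact ⟨Finset.empty_subset _, fun P hP => absurd hP (Finset.notMem_empty P)⟩
  obtain ⟨t, ht, hmax⟩ := Finset.exists_max_image 𝒯 (fun t => t.card) hne
  rw [h𝒯, Finset.mem_filter, Finset.mem_powerset] at ht
  have hsub : s' ⊆ t ∪ t.image τ := by
    intro Q hQ
    by_cases hQt : Q ∈ t
    · exact Finset.mem_union_left _ hQt
    · apply Finset.mem_union_right
      rw [Finset.mem_image]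
      by_contra hcon
      push Not at hcon
      have hn : ∀ P ∈ t, ¬ Meet Q P := by
        intro P hP hm
        have hP' := ht.1 hP
        have hne : Q ≠ P := fun h => hQt (h ▸ hP)
        exact hcon P hP (hτ P (hs'F P hP') (hs'0 P hP') Q (hs'F Q hQ) (hs'0 Q hQ) hne hm).symm
      have hins : insert Q t ∈ 𝒯 := by
        rw [h𝒯, Finset.mem_filter, Finset.mem_powerset]
        refine ⟨Finset.insert_subset hQ ht.1, ?_⟩
        intro A hA B hB hAB
        rcases Finset.mem_insert.1 hA with rfl | hA'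
        · rcases Finset.mem_insert.1 hB with rfl | hB'
          · exact absurd rfl hAB
          · exact hn B hB'
        · rcases Finset.mem_insert.1 hB with rfl | hB'
          · exact fun h => hn A hA' (meet_symm h)
          · exact ht.2 A hA' B hB' hAB
      have h1 := hmax _ hins
      rw [Finset.card_insert_of_notMem hQt] at h1
      omega
  have h20 : t.card ≤ m := by
    refine hI' t.card (fun i => (t.equivFin.symm i).1) P₀ hP₀
      (fun i => hs'F _ (ht.1 (t.equivFin.symm i).2)) ?_ ?_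
    · intro i j hij
      have hne : (t.equivFin.symm i).1 ≠ (t.equivFin.symm j).1 := by
        intro h
        exact hij (t.equivFin.symm.injective (Subtype.ext h))
      have h1 := hs'F _ (ht.1 (t.equivFin.symm i).2)
      have h2 := hs'F _ (ht.1 (t.equivFin.symm j).2)
      exact finrank_one h1.1 h2.1 hne (hno _ _ h1 h2)
        (ht.2 _ (t.equivFin.symm i).2 _ (t.equivFin.symm j).2 hne)
    · intro i
      exact hall _ (hs'F _ (ht.1 (t.equivFin.symm i).2)) (hs'0 _ (ht.1 (t.equivFin.symm i).2))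
  have h1 := Finset.card_le_card hsub
  have h2 := Finset.card_union_le t (t.image τ)
  have h3 := Finset.card_image_le (s := t) (f := τ)
  have h4 : s.card ≤ s'.card + 1 := by
    have h5 : s ⊆ insert P₀ s' := by
      intro x hx
      rw [Finset.mem_insert]
      by_cases h6 : x = P₀
      · exact Or.inl h6
      · exact Or.inr (Finset.mem_erase.2 ⟨h6, hx⟩)
    exact (Finset.card_le_card h5).trans (Finset.card_insert_le _ _)
  omega

/-- **Row T, the count.** If at most thirteen good directions belong to a plane, then there are at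
most 27 planes. -/
theorem le_27 {F : MvPolynomial (Fin 6) ℂ} (hF : IsCubicFourfold F)
    (hno : ∀ P Q, IsPlaneIn F P → IsPlaneIn F Q → ¬ Disjoint P Q)
    (h13 : ∀ P : Submodule ℂ A6, Pl (pol F) P → ∀ (N : ℕ) (w : Fin N → A6), (∀ i, w i ∉ P) →
      (∀ i j, i ≠ j → w j ∉ P ⊔ span ℂ {w i}) → (∀ i, Good (pol F) P (w i)) → N ≤ 13)
    (s : Finset (Submodule ℂ A6)) (hs : ∀ P ∈ s, IsPlaneIn F P) : s.card ≤ 27 := by
  have h := le_of_bound hF hno 13 (fun N p P₀ hP₀ hp hmeet hline => by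
    obtain ⟨w, h1, h2, h3⟩ := good_of_planes ((isPlaneIn_iff hF P₀).1 hP₀) p
      (fun i => (isPlaneIn_iff hF (p i)).1 (hp i)) hmeet hline
    exact h13 P₀ ((isPlaneIn_iff hF P₀).1 hP₀) N w h1 h2 h3) s hs
  simpa using h

/-- **The sharp bound, given the thirteen.** -/
theorem twenty_eight_of {F : MvPolynomial (Fin 6) ℂ} (hF : IsCubicFourfold F)
    (h13 : ∀ P : Submodule ℂ A6, Pl (pol F) P → ∀ (N : ℕ) (w : Fin N → A6), (∀ i, w i ∉ P) →
      (∀ i j, i ≠ j → w j ∉ P ⊔ span ℂ {w i}) → (∀ i, Good (pol F) P (w i)) → N ≤ 13)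
    (s : Finset (Submodule ℂ A6)) (hs : 28 ≤ s.card) (hsF : ∀ P ∈ s, IsPlaneIn F P) :
    (∃ P Q, IsPlaneIn F P ∧ IsPlaneIn F Q ∧ Disjoint P Q) ∧ IsRational F := by
  have h : ∃ P Q, IsPlaneIn F P ∧ IsPlaneIn F Q ∧ Disjoint P Q := by
    by_contra hcon
    have hno : ∀ P Q, IsPlaneIn F P → IsPlaneIn F Q → ¬ Disjoint P Q :=
      fun P Q hP hQ hd => hcon ⟨P, Q, hP, hQ, hd⟩
    have := le_27 hF hno h13 s hsF
    omega
  refine ⟨h, ?_⟩
  obtain ⟨P, Q, hP, hQ, hd⟩ := h
  exact rational_of_two hF hP hQ hd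

end Vale.Agent.P287.R2.H62
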