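import Vale.Agent.P287.R2.H62.Nineteen
import Vale.Agent.P287.R2.H62.Final40
import Vale.Agent.P287.R2.H622.Many

/-!
P287 (helper62): a smooth cubic fourfold with at least forty planes contains two disjoint planes.
-/

namespace Vale.Agent.P287.R2.H62

open MvPolynomial Submodule Module
open Vale.Agent.P287.R2.H248 Vale.Agent.P287.R2.H622

/-- Planes that meet pairwise in one point and all meet a further plane in a line: at most
nineteen. -/
theorem card_le_nineteen {F : MvPolynomial (Fin 6) ℂ} (hF : IsCubicFourfold F) (N : ℕ)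
    (p : Fin N → Submodule ℂ A6) (P₀ : Submodule ℂ A6) (hP₀ : IsPlaneIn F P₀)
    (hp : ∀ i, IsPlaneIn F (p i)) (hmeet : ∀ i j, i ≠ j → finrank ℂ ↥(p i ⊓ p j) = 1)
    (hline : ∀ i, finrank ℂ ↥(P₀ ⊓ p i) = 2) : N ≤ 19 := by
  have hV : finrank ℂ A6 = 6 := by simp [A6]
  exact le_nineteen hV (pol_smooth hF) p P₀ ((isPlaneIn_iff hF P₀).1 hP₀)
    (fun i => (isPlaneIn_iff hF (p i)).1 (hp i)) hmeet hline

/-- No two planes disjoint: at most 39 planes. -/
theorem card_le_39 {F : MvPolynomial (Fin 6) ℂ} (hF : IsCubicFourfold F)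
    (hno : ∀ P Q, IsPlaneIn F P → IsPlaneIn F Q → ¬ Disjoint P Q)
    (s : Finset (Submodule ℂ A6)) (hs : ∀ P ∈ s, IsPlaneIn F P) : s.card ≤ 39 :=
  le_39 hF hno (card_le_twenty hF) (card_le_nineteen hF) s hs

/-- At least 40 planes: two of them are disjoint and the cubic fourfold is rational. -/
theorem forty {F : MvPolynomial (Fin 6) ℂ} (hF : IsCubicFourfold F)
    (s : Finset (Submodule ℂ A6)) (hs : 40 ≤ s.card) (hsF : ∀ P ∈ s, IsPlaneIn F P) :
    (∃ P Q, IsPlaneIn F P ∧ IsPlaneIn F Q ∧ Disjoint P Q) ∧ IsRational F := by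
  have h : ∃ P Q, IsPlaneIn F P ∧ IsPlaneIn F Q ∧ Disjoint P Q := by
    by_contra hcon
    have hno : ∀ P Q, IsPlaneIn F P → IsPlaneIn F Q → ¬ Disjoint P Q :=
      fun P Q hP hQ hd => hcon ⟨P, Q, hP, hQ, hd⟩
    have := card_le_39 hF hno s hsF
    omega
  refine ⟨h, ?_⟩
  obtain ⟨P, Q, hP, hQ, hd⟩ := h
  exact rational_of_two hF hP hQ hd

end Vale.Agent.P287.R2.H62
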