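import Vale.Agent.P287.R2.H414.Adapt

/-!
P287 (helper62): frames adapted to two planes that meet in a line, and frames adapted to a
hyperplane that contains the plane.
-/

namespace Vale.Agent.P287.R2.H62

open Module Submodule Vale.Agent.P287.R2.H248 Vale.Agent.P287.R2.H414

variable {V : Type*} [AddCommGroup V] [Module ℂ V]

theorem exists_line_frame [FiniteDimensional ℂ V] (hV : finrank ℂ V = 6)
    (e0 : Basis (Fin 3 ⊕ Fin 3) ℂ V) {P Q : Submodule ℂ V} (hP : finrank ℂ P = 3)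
    (hQ : finrank ℂ Q = 3) (hPQ : finrank ℂ ↥(P ⊓ Q) = 2) :
    ∃ e e' : Basis (Fin 3 ⊕ Fin 3) ℂ V, (∀ i, e (Sum.inl i) ∈ P) ∧ (∀ i, e' (Sum.inl i) ∈ Q) ∧
      e0.det e = 1 ∧ e0.det e' = 1 ∧ e' (Sum.inl 0) = e (Sum.inl 0) ∧
      e' (Sum.inl 1) = e (Sum.inl 1) ∧ e' (Sum.inl 2) = e (Sum.inr 0) ∧
      e' (Sum.inr 0) = e (Sum.inl 2) ∧ e' (Sum.inr 1) = e (Sum.inr 2) ∧
      e' (Sum.inr 2) = e (Sum.inr 1) := by
  classical
  obtain ⟨C, hc⟩ := (P ⊓ Q).exists_isCompl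
  have hPs : (P ⊓ Q) ⊔ (C ⊓ P) = P := by
    rw [← sup_inf_assoc_of_le _ (inf_le_left : P ⊓ Q ≤ P), hc.sup_eq_top, top_inf_eq]
  have hQs : (P ⊓ Q) ⊔ (C ⊓ Q) = Q := by
    rw [← sup_inf_assoc_of_le _ (inf_le_right : P ⊓ Q ≤ Q), hc.sup_eq_top, top_inf_eq]
  have hPd : (P ⊓ Q) ⊓ (C ⊓ P) = ⊥ :=
    (hc.disjoint.mono_right inf_le_left).eq_bot
  have hQd : (P ⊓ Q) ⊓ (C ⊓ Q) = ⊥ :=
    (hc.disjoint.mono_right inf_le_left).eq_bot
  have hP1 : finrank ℂ ↥(C ⊓ P) = 1 := by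
    have := Submodule.finrank_sup_add_finrank_inf_eq (P ⊓ Q) (C ⊓ P)
    rw [hPs, hPd, finrank_bot, hP, hPQ] at this
    omega
  have hQ1 : finrank ℂ ↥(C ⊓ Q) = 1 := by
    have := Submodule.finrank_sup_add_finrank_inf_eq (P ⊓ Q) (C ⊓ Q)
    rw [hQs, hQd, finrank_bot, hQ, hPQ] at this
    omega
  have h4 : finrank ℂ ↥(P ⊔ Q) = 4 := by
    have := Submodule.finrank_sup_add_finrank_inf_eq P Q
    rw [hP, hQ, hPQ] at this
    omega
  obtain ⟨k, hk⟩ := exists_not_mem (U := P ⊔ Q) (by rw [h4, hV]; norm_num)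
  have h5 : finrank ℂ ↥((P ⊔ Q) ⊔ span ℂ {k}) = 5 := by
    rw [finrank_sup_single hk, h4]
  obtain ⟨l, hl⟩ := exists_not_mem (U := (P ⊔ Q) ⊔ span ℂ {k}) (by rw [h5, hV]; norm_num)
  set bD := finBasisOfFinrankEq ℂ ↥(P ⊓ Q) hPQ
  set bP := finBasisOfFinrankEq ℂ ↥(C ⊓ P) hP1
  set bQ := finBasisOfFinrankEq ℂ ↥(C ⊓ Q) hQ1
  set w : Fin 3 ⊕ Fin 3 → V := Sum.elim ![(bD 0 : V), (bD 1 : V), (bP 0 : V)]
    ![(bQ 0 : V), k, l] with hw
  have hmem : ∀ i, w i ∈ span ℂ (Set.range w) := fun i => subset_span ⟨i, rfl⟩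
  have hD : P ⊓ Q ≤ span ℂ (Set.range w) := by
    refine le_of_basis bD fun i => ?_
    fin_cases i
    · exact hmem (Sum.inl 0)
    · exact hmem (Sum.inl 1)
  have hP' : C ⊓ P ≤ span ℂ (Set.range w) := by
    refine le_of_basis bP fun i => ?_
    fin_cases i
    exact hmem (Sum.inl 2)
  have hQ' : C ⊓ Q ≤ span ℂ (Set.range w) := by
    refine le_of_basis bQ fun i => ?_
    fin_cases i
    exact hmem (Sum.inr 0)
  have hPw : P ≤ span ℂ (Set.range w) := by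
    conv_lhs => rw [← hPs]
    exact sup_le hD hP'
  have hQw : Q ≤ span ℂ (Set.range w) := by
    conv_lhs => rw [← hQs]
    exact sup_le hD hQ'
  have htop : ⊤ ≤ span ℂ (Set.range w) := by
    have h6 : ((P ⊔ Q) ⊔ span ℂ {k}) ⊔ span ℂ {l} = ⊤ := by
      apply Submodule.eq_top_of_finrank_eq
      rw [finrank_sup_single hl, h5, hV]
    rw [← h6]
    refine sup_le (sup_le (sup_le hPw hQw) ?_) ?_
    · rw [span_le, Set.singleton_subset_iff]
      exact hmem (Sum.inr 1)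
    · rw [span_le, Set.singleton_subset_iff]
      exact hmem (Sum.inr 2)
  set e1 := basisOfTopLeSpanOfCardEqFinrank w htop (by rw [hV]; rfl) with he1
  have he1w : ∀ i, e1 i = w i := fun i => by
    rw [he1, coe_basisOfTopLeSpanOfCardEqFinrank]
  obtain ⟨e, he, hdet⟩ := exists_scale e0 e1
  set σ : Equiv.Perm (Fin 3 ⊕ Fin 3) := Equiv.swap (Sum.inl 2) (Sum.inr 0) *
    Equiv.swap (Sum.inr 1) (Sum.inr 2) with hσ
  have heq : ∀ i, (e.reindex σ.symm) i = e (σ i) := fun i => by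
    rw [Basis.reindex_apply, Equiv.symm_symm]
  have s0 : σ (Sum.inl 0) = Sum.inl 0 := by decide
  have s1 : σ (Sum.inl 1) = Sum.inl 1 := by decide
  have s2 : σ (Sum.inl 2) = Sum.inr 0 := by decide
  have s3 : σ (Sum.inr 0) = Sum.inl 2 := by decide
  have s4 : σ (Sum.inr 1) = Sum.inr 2 := by decide
  have s5 : σ (Sum.inr 2) = Sum.inr 1 := by decide
  have hsign : Equiv.Perm.sign σ = 1 := by decide
  refine ⟨e, e.reindex σ.symm, ?_, ?_, hdet, ?_, ?_, ?_, ?_, ?_, ?_, ?_⟩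
  · intro i
    rw [he _ (by simp), he1w]
    fin_cases i
    · exact (bD 0).2.1
    · exact (bD 1).2.1
    · exact (bP 0).2.2
  · intro i
    rw [heq]
    fin_cases i
    · show e (σ (Sum.inl 0)) ∈ Q
      rw [s0, he _ (by simp), he1w]
      exact (bD 0).2.2
    · show e (σ (Sum.inl 1)) ∈ Q
      rw [s1, he _ (by simp), he1w]
      exact (bD 1).2.2
    · show e (σ (Sum.inl 2)) ∈ Q
      rw [s2, he _ (by decide), he1w]
      exact (bQ 0).2.2
  · have h1 : (⇑(e.reindex σ.symm)) = e ∘ σ := funext heq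
    rw [h1, AlternatingMap.map_perm, hsign, one_smul, hdet]
  · rw [heq, s0]
  · rw [heq, s1]
  · rw [heq, s2]
  · rw [heq, s3]
  · rw [heq, s4]
  · rw [heq, s5]

/-- A frame of a plane `Q` inside a hyperplane, the kernel of a form that depends on the first
vector. -/
theorem exists_flag_frame [FiniteDimensional ℂ V] (hV : finrank ℂ V = 6)
    (e0 : Basis (Fin 3 ⊕ Fin 3) ℂ V) {Q : Submodule ℂ V} (hQ : finrank ℂ Q = 3)
    (φ : V → (V →ₗ[ℂ] ℂ)) (h0 : ∀ v ∈ Q, v ≠ 0 → φ v ≠ 0) (h1 : ∀ v ∈ Q, ∀ w ∈ Q, φ v w = 0) :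
    ∃ e : Basis (Fin 3 ⊕ Fin 3) ℂ V, (∀ i, e (Sum.inl i) ∈ Q) ∧ e0.det e = 1 ∧
      φ (e (Sum.inl 0)) (e (Sum.inr 0)) = 0 ∧ φ (e (Sum.inl 0)) (e (Sum.inr 1)) = 0 := by
  classical
  set b := finBasisOfFinrankEq ℂ Q hQ with hb
  set o : V := (b 0 : V) with ho
  have ho0 : o ≠ 0 := by
    rw [ho, Ne, ZeroMemClass.coe_eq_zero]
    exact b.ne_zero 0
  have hφ0 : φ o ≠ 0 := h0 o (b 0).2 ho0
  set K : Submodule ℂ V := LinearMap.ker (φ o) with hK
  have hQK : Q ≤ K := fun w hw => h1 o (b 0).2 w hw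
  have hK5 : finrank ℂ K = 5 := by
    have h2 := LinearMap.finrank_range_add_finrank_ker (φ o)
    have h3 : finrank ℂ ↥(LinearMap.range (φ o)) = 1 := by
      rw [LinearMap.range_eq_top.mpr (LinearMap.surjective hφ0), finrank_top, finrank_self]
    rw [h3, hV] at h2
    rw [hK]
    omega
  obtain ⟨C, hc⟩ := Q.exists_isCompl
  have hKs : Q ⊔ (C ⊓ K) = K := by
    rw [← sup_inf_assoc_of_le _ hQK, hc.sup_eq_top, top_inf_eq]
  have hKd : Q ⊓ (C ⊓ K) = ⊥ := (hc.disjoint.mono_right inf_le_left).eq_bot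
  have hC2 : finrank ℂ ↥(C ⊓ K) = 2 := by
    have := Submodule.finrank_sup_add_finrank_inf_eq Q (C ⊓ K)
    rw [hKs, hKd, finrank_bot, hQ, hK5] at this
    omega
  obtain ⟨k, hk⟩ := exists_not_mem (U := K) (by rw [hK5, hV]; norm_num)
  set bC := finBasisOfFinrankEq ℂ ↥(C ⊓ K) hC2
  set w : Fin 3 ⊕ Fin 3 → V := Sum.elim ![(b 0 : V), (b 1 : V), (b 2 : V)]
    ![(bC 0 : V), (bC 1 : V), k] with hw
  have hmem : ∀ i, w i ∈ span ℂ (Set.range w) := fun i => subset_span ⟨i, rfl⟩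
  have hQ' : Q ≤ span ℂ (Set.range w) := by
    refine le_of_basis b fun i => ?_
    fin_cases i
    · exact hmem (Sum.inl 0)
    · exact hmem (Sum.inl 1)
    · exact hmem (Sum.inl 2)
  have hC' : C ⊓ K ≤ span ℂ (Set.range w) := by
    refine le_of_basis bC fun i => ?_
    fin_cases i
    · exact hmem (Sum.inr 0)
    · exact hmem (Sum.inr 1)
  have hKw : K ≤ span ℂ (Set.range w) := by
    conv_lhs => rw [← hKs]
    exact sup_le hQ' hC'
  have htop : ⊤ ≤ span ℂ (Set.range w) := by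
    have h6 : K ⊔ span ℂ {k} = ⊤ := by
      apply Submodule.eq_top_of_finrank_eq
      rw [finrank_sup_single hk, hK5, hV]
    rw [← h6]
    refine sup_le hKw ?_
    rw [span_le, Set.singleton_subset_iff]
    exact hmem (Sum.inr 2)
  set e1 := basisOfTopLeSpanOfCardEqFinrank w htop (by rw [hV]; rfl) with he1
  have he1w : ∀ i, e1 i = w i := fun i => by
    rw [he1, coe_basisOfTopLeSpanOfCardEqFinrank]
  obtain ⟨e, he, hdet⟩ := exists_scale e0 e1
  refine ⟨e, ?_, hdet, ?_, ?_⟩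
  · intro i
    rw [he _ (by simp), he1w]
    fin_cases i
    · exact (b 0).2
    · exact (b 1).2
    · exact (b 2).2
  · rw [he _ (by simp), he _ (by decide), he1w, he1w]
    exact (bC 0).2.2
  · rw [he _ (by simp), he _ (by decide), he1w, he1w]
    exact (bC 1).2.2

end Vale.Agent.P287.R2.H62
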