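import Vale.Agent.P287.R2.H622.Pair

/-!
P287 (helper62): the cubic forms of two planes that meet in a line, on the second plane.
-/

namespace Vale.Agent.P287.R2.H62

open Module Submodule
open Vale.Agent.P287.R2.H248 Vale.Agent.P287.R2.H622

variable {V : Type*} [AddCommGroup V] [Module ℂ V] {S : Tri V}

/-- the polynomial identity: the determinants of two planes that meet in a line. The entries are
those of `T(x, b i, c j)` and of `T(q, b i, c j)`. -/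
lemma det_line (x0 x1 x2 n0 n1 n2 m01 m11 m21 m02 m12 m22 p01 p11 p02 p12 : ℂ) :
    8 * (Matrix.of ![![x2 * n0, m01, m02], ![x2 * n1, m11, m12],
      ![x0 * n0 + x1 * n1 + x2 * n2, m21, m22]] : Matrix (Fin 3) (Fin 3) ℂ).det +
    2 * ((2 * x0 * n0 + 2 * x1 * n1 + x2 * n2) *
      ((2 * m02 - x2 * p02) * (2 * m11 - x2 * p11) - (2 * m01 - x2 * p01) * (2 * m12 - x2 * p12))) =
    (4 * (m01 * p12 + p01 * m12 - m02 * p11 - p02 * m11) - 2 * x2 * (p01 * p12 - p02 * p11)) *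
      (x2 * (2 * x0 * n0 + 2 * x1 * n1 + x2 * n2)) +
    (8 * (n1 * m02 - n0 * m12)) * (x0 * m01 + x1 * m11 + x2 * m21) +
    (8 * (n0 * m11 - n1 * m01)) * (x0 * m02 + x1 * m12 + x2 * m22) := by
  rw [Matrix.det_fin_three]
  simp only [Matrix.of_apply, Matrix.cons_val_zero, Matrix.cons_val_one, Matrix.cons_val]
  ring

/-- Two planes that meet in a line: `dl Q + 2 dl P` is in the Jacobian ideal on `Q`. -/
theorem line_identity [FiniteDimensional ℂ V] {P Q : Submodule ℂ V} (hP : Pl S P) (hQ : Pl S Q)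
    (e e' : Basis (Fin 3 ⊕ Fin 3) ℂ V) (he : ∀ i, e (Sum.inl i) ∈ P)
    (he' : ∀ i, e' (Sum.inl i) ∈ Q) (h0 : e' (Sum.inl 0) = e (Sum.inl 0))
    (h1 : e' (Sum.inl 1) = e (Sum.inl 1)) (h2 : e' (Sum.inl 2) = e (Sum.inr 0))
    (h3 : e' (Sum.inr 0) = e (Sum.inl 2)) (h4 : e' (Sum.inr 1) = e (Sum.inr 2))
    (h5 : e' (Sum.inr 2) = e (Sum.inr 1)) :
    (fun x => dl S e' x + 2 * dl S e x) ∈ JS S Q := by
  obtain ⟨o, ho⟩ : ∃ o, e (Sum.inl 0) = o := ⟨_, rfl⟩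
  obtain ⟨o2, ho2⟩ : ∃ o, e (Sum.inl 1) = o := ⟨_, rfl⟩
  obtain ⟨p, hp⟩ : ∃ o, e (Sum.inl 2) = o := ⟨_, rfl⟩
  obtain ⟨q, hq⟩ : ∃ o, e (Sum.inr 0) = o := ⟨_, rfl⟩
  obtain ⟨k1, hk1⟩ : ∃ o, e (Sum.inr 1) = o := ⟨_, rfl⟩
  obtain ⟨k2, hk2⟩ : ∃ o, e (Sum.inr 2) = o := ⟨_, rfl⟩
  have hoP : o ∈ P := ho ▸ he 0
  have ho2P : o2 ∈ P := ho2 ▸ he 1
  have hpP : p ∈ P := hp ▸ he 2
  have hoQ : o ∈ Q := by rw [← ho, ← h0]; exact he' 0
  have ho2Q : o2 ∈ Q := by rw [← ho2, ← h1]; exact he' 1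
  have hqQ : q ∈ Q := by rw [← hq, ← h2]; exact he' 2
  let X : Fin 3 → (V →ₗ[ℂ] ℂ) := fun i => e'.coord (Sum.inl i)
  have hx : ∀ x ∈ Q, x = X 0 x • o + X 1 x • o2 + X 2 x • q := by
    intro x hxQ
    have h := prj_of_mem hQ.1 he' hxQ
    rw [prj_apply, Fin.sum_univ_three, h0, h1, h2, ho, ho2, hq] at h
    exact h.symm
  have hpx : ∀ x ∈ Q, x + prj e x = (2 : ℂ) • x - X 2 x • q := by
    intro x hxQ
    have h6 : prj e x = X 0 x • o + X 1 x • o2 := by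
      conv_lhs => rw [hx x hxQ]
      rw [map_add, map_add, map_smul, map_smul, map_smul, ← ho, ← ho2, ← hq, prj_inl, prj_inl,
        prj_inr, smul_zero, add_zero]
    have h7 : prj e x = x - X 2 x • q := by
      rw [eq_sub_iff_add_eq, h6]
      exact (hx x hxQ).symm
    rw [h7, two_smul]
    abel
  have hpx' : ∀ x ∈ Q, x + prj e' x = (2 : ℂ) • x := fun x hxQ => by
    rw [prj_of_mem hQ.1 he' hxQ, two_smul]
  let m : V → V → (V →ₗ[ℂ] ℂ) := fun b c => (S.T.flip b).flip c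
  have hm : ∀ b c x, m b c x = S.T x b c := fun _ _ _ => rfl
  let L : Fin 3 → (V →ₗ[ℂ] ℂ) := ![
    (4 : ℂ) • (S.T q o2 k1 • m o k2 + S.T q o k2 • m o2 k1 - S.T q o2 k2 • m o k1 -
      S.T q o k1 • m o2 k2) -
      (2 * (S.T q o k2 * S.T q o2 k1 - S.T q o k1 * S.T q o2 k2)) • X 2,
    (8 : ℂ) • (S.T q o2 p • m o k1 - S.T q o p • m o2 k1),
    (8 : ℂ) • (S.T q o p • m o2 k2 - S.T q o2 p • m o k2)]
  refine JS_congr (JS_lin3 Q L ![p, k2, k1]) fun x hxQ => ?_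
  have hL0 : L 0 x = 4 * (S.T q o2 k1 * S.T x o k2 + S.T q o k2 * S.T x o2 k1 -
      S.T q o2 k2 * S.T x o k1 - S.T q o k1 * S.T x o2 k2) -
      (2 * (S.T q o k2 * S.T q o2 k1 - S.T q o k1 * S.T q o2 k2)) * X 2 x := rfl
  have hL1 : L 1 x = 8 * (S.T q o2 p * S.T x o k1 - S.T q o p * S.T x o2 k1) := rfl
  have hL2 : L 2 x = 8 * (S.T q o p * S.T x o2 k2 - S.T q o2 p * S.T x o k2) := rfl
  -- the expansion in the second place
  have h2nd : ∀ k, S.T x x k = X 0 x * S.T x o k + X 1 x * S.T x o2 k + X 2 x * S.T x q k := by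
    intro k
    have h6 := congrArg (fun y => S.T x y k) (hx x hxQ)
    simp only [map_add, map_smul, LinearMap.add_apply, LinearMap.smul_apply, smul_eq_mul] at h6
    exact h6
  have h1st : ∀ b k, S.T x b k = X 0 x * S.T o b k + X 1 x * S.T o2 b k + X 2 x * S.T q b k := by
    intro b k
    have h6 := congrArg (fun y => S.T y b k) (hx x hxQ)
    simp only [map_add, map_smul, LinearMap.add_apply, LinearMap.smul_apply, smul_eq_mul] at h6
    exact h6
  have a0 : S.T x o p = X 2 x * S.T q o p := by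
    rw [h1st, hP.2.three hoP hoP hpP, hP.2.three ho2P hoP hpP]
    ring
  have a1 : S.T x o2 p = X 2 x * S.T q o2 p := by
    rw [h1st, hP.2.three hoP ho2P hpP, hP.2.three ho2P ho2P hpP]
    ring
  have a2 : S.T x q p = X 0 x * S.T q o p + X 1 x * S.T q o2 p + X 2 x * S.T q q p := by
    rw [h1st, S.s12 o q, S.s12 o2 q]
  have q0 : S.T x x p = X 2 x * (2 * X 0 x * S.T q o p + 2 * X 1 x * S.T q o2 p +
      X 2 x * S.T q q p) := by
    rw [h2nd, a0, a1, a2]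
    ring
  have hD' : dl S e' x = 8 * (Matrix.of ![![X 2 x * S.T q o p, S.T x o k2, S.T x o k1],
      ![X 2 x * S.T q o2 p, S.T x o2 k2, S.T x o2 k1],
      ![X 0 x * S.T q o p + X 1 x * S.T q o2 p + X 2 x * S.T q q p, S.T x q k2, S.T x q k1]] :
        Matrix (Fin 3) (Fin 3) ℂ).det := by
    unfold dl dt
    rw [hpx' x hxQ, Matrix.det_fin_three, Matrix.det_fin_three]
    simp only [Matrix.of_apply, Matrix.cons_val_zero, Matrix.cons_val_one, Matrix.cons_val,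
      h0, h1, h2, h3, h4, h5, ho, ho2, hp, hq, hk1, hk2, map_smul, LinearMap.smul_apply,
      smul_eq_mul]
    rw [a0, a1, a2]
    ring
  have hD : dl S e x = (2 * X 0 x * S.T q o p + 2 * X 1 x * S.T q o2 p + X 2 x * S.T q q p) *
      ((2 * S.T x o k1 - X 2 x * S.T q o k1) * (2 * S.T x o2 k2 - X 2 x * S.T q o2 k2) -
        (2 * S.T x o k2 - X 2 x * S.T q o k2) * (2 * S.T x o2 k1 - X 2 x * S.T q o2 k1)) := by
    have hE : ∀ b k, S.T (x + prj e x) b k = 2 * S.T x b k - X 2 x * S.T q b k := by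
      intro b k
      rw [hpx x hxQ]
      simp only [map_sub, map_smul, LinearMap.sub_apply, LinearMap.smul_apply, smul_eq_mul]
    unfold dl dt
    rw [Matrix.det_fin_three]
    simp only [Matrix.of_apply, ho, ho2, hp, hq, hk1, hk2, hE]
    have e1 : S.T x o q = 0 := hQ.2.three hxQ hoQ hqQ
    have e2 : S.T q o q = 0 := hQ.2.three hqQ hoQ hqQ
    have e3 : S.T x o2 q = 0 := hQ.2.three hxQ ho2Q hqQ
    have e4 : S.T q o2 q = 0 := hQ.2.three hqQ ho2Q hqQ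
    have e5 : S.T x p q = X 0 x * S.T q o p + X 1 x * S.T q o2 p + X 2 x * S.T q q p := by
      rw [S.s23, a2]
    have e6 : S.T q p q = S.T q q p := S.s23 _ _ _
    rw [e1, e2, e3, e4, e5, e6]
    ring
  have hdet := det_line (X 0 x) (X 1 x) (X 2 x) (S.T q o p) (S.T q o2 p) (S.T q q p)
    (S.T x o k2) (S.T x o2 k2) (S.T x q k2) (S.T x o k1) (S.T x o2 k1) (S.T x q k1)
    (S.T q o k2) (S.T q o2 k2) (S.T q o k1) (S.T q o2 k1)
  rw [← hD', ← hD] at hdet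
  rw [hdet]
  simp only [Matrix.cons_val_zero, Matrix.cons_val_one, Matrix.cons_val]
  rw [hL0, hL1, hL2, q0, h2nd k2, h2nd k1]
  ring

end Vale.Agent.P287.R2.H62
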