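import Vale.Agent.P287.R2.H622.NotMem
import Vale.Agent.P287.R2.H622.Twenty
import Vale.Agent.P287.R2.H62.LinePair
import Vale.Agent.P287.R2.H62.LineFrame

/-!
P287 (helper62): the cubic form of a plane is never in the Jacobian ideal restricted to the plane.
-/

namespace Vale.Agent.P287.R2.H62

open Module Submodule
open Vale.Agent.P287.R2.H248 Vale.Agent.P287.R2.H622

variable {V : Type*} [AddCommGroup V] [Module ℂ V] {S : Tri V}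

/-- The form of `Q` is not in the Jacobian ideal on `Q`: a frame with two quadrics through the
first point. -/
theorem not_mem_flag [FiniteDimensional ℂ V] (hS : S.Smooth) {Q : Submodule ℂ V} (hQ : Pl S Q)
    (e : Basis (Fin 3 ⊕ Fin 3) ℂ V) (he : ∀ i, e (Sum.inl i) ∈ Q)
    (g1 : S.T (e (Sum.inl 0)) (e (Sum.inl 0)) (e (Sum.inr 0)) = 0)
    (g2 : S.T (e (Sum.inl 0)) (e (Sum.inl 0)) (e (Sum.inr 1)) = 0) : dl S e ∉ JS S Q := by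
  rintro ⟨A, hA⟩
  have hoQ : e (Sum.inl 0) ∈ Q := he 0
  have huQ : e (Sum.inl 1) ∈ Q := he 1
  have hvQ : e (Sum.inl 2) ∈ Q := he 2
  obtain ⟨o, ho⟩ : ∃ o, e (Sum.inl 0) = o := ⟨_, rfl⟩
  obtain ⟨u, hu⟩ : ∃ o, e (Sum.inl 1) = o := ⟨_, rfl⟩
  obtain ⟨v, hv⟩ : ∃ o, e (Sum.inl 2) = o := ⟨_, rfl⟩
  obtain ⟨p1, hp1⟩ : ∃ o, e (Sum.inr 0) = o := ⟨_, rfl⟩
  obtain ⟨p2, hp2⟩ : ∃ o, e (Sum.inr 1) = o := ⟨_, rfl⟩
  obtain ⟨k, hk⟩ : ∃ o, e (Sum.inr 2) = o := ⟨_, rfl⟩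
  rw [ho, hp1] at g1
  rw [ho, hp2] at g2
  -- vanishing of T x x on the basis
  have hbas : ∀ x ∈ Q, S.T x x p1 = 0 → S.T x x p2 = 0 → S.T x x k = 0 → x = 0 := by
    intro x hx e1 e2 e3
    apply hS
    have h6 : S.T x x = 0 := by
      apply e.ext
      rintro (i | i) <;> fin_cases i
      · exact hQ.2.two hx hoQ
      · exact hQ.2.two hx huQ
      · exact hQ.2.two hx hvQ
      · change S.T x x (e (Sum.inr 0)) = 0
        rw [hp1]; exact e1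
      · change S.T x x (e (Sum.inr 1)) = 0
        rw [hp2]; exact e2
      · change S.T x x (e (Sum.inr 2)) = 0
        rw [hk]; exact e3
    intro w
    rw [h6]; rfl
  rw [ho] at hoQ
  rw [hu] at huQ
  rw [hv] at hvQ
  have ho0 : o ≠ 0 := by rw [← ho]; exact e.ne_zero _
  have hg : S.T o o k ≠ 0 := by
    intro h
    exact ho0 (hbas o hoQ g1 g2 h)
  -- the parametrization of Q
  let ψ : (Fin 3 → ℂ) →ₗ[ℂ] V := (LinearMap.proj 0).smulRight o + (LinearMap.proj 1).smulRight u +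
    (LinearMap.proj 2).smulRight v
  have hψ : ∀ y, ψ y = y 0 • o + y 1 • u + y 2 • v := fun y => rfl
  let ψ' : (Fin 3 → ℂ) →ₗ[ℂ] V := ψ + (LinearMap.proj 0).smulRight o
  have hψ' : ∀ y, ψ' y = (2 * y 0) • o + y 1 • u + y 2 • v := by
    intro y
    change (y 0 • o + y 1 • u + y 2 • v) + y 0 • o = _
    rw [mul_smul, two_smul]
    abel
  have hψQ : ∀ y, ψ y ∈ Q := by
    intro y
    rw [hψ]
    exact Q.add_mem (Q.add_mem (Q.smul_mem _ hoQ) (Q.smul_mem _ huQ)) (Q.smul_mem _ hvQ)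
  have hψ0 : ∀ y, ψ y = 0 → y = 0 := by
    intro y hy
    have h6 : e.repr (ψ y) = 0 := by rw [hy, map_zero]
    have h7 : ψ y = y 0 • e (Sum.inl 0) + y 1 • e (Sum.inl 1) + y 2 • e (Sum.inl 2) := by
      rw [hψ, ho, hu, hv]
    rw [h7] at h6
    funext i
    have h8 := DFunLike.congr_fun h6 (Sum.inl i)
    fin_cases i <;> simpa [Finsupp.single_apply] using h8
  let M : Fin 2 → Fin 2 → ((Fin 3 → ℂ) →ₗ[ℂ] ℂ) := fun i j =>
    ((S.T.flip (![p1, p2] i)).flip (![u, v] j)).comp ψ'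
  have hM : ∀ i j y, M i j y = S.T (ψ' y) (![p1, p2] i) (![u, v] j) := fun i j y => rfl
  have hT : ∀ y k, S.T (ψ' y) k u * y 1 + S.T (ψ' y) k v * y 2 + y 0 ^ 2 * S.T o o k =
      S.T (ψ y) (ψ y) k := by
    intro y k
    rw [hψ, quad_exp, hψ', tri_exp, tri_exp, S.s23 o k u, S.s23 u k u, S.s23 v k u, S.s12 v u k,
      S.s23 o k v, S.s23 u k v, S.s23 v k v]
    ring
  have hq1 : ∀ y, y 1 * M 0 0 y + y 2 * M 0 1 y = S.T (ψ y) (ψ y) p1 := by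
    intro y
    rw [← hT y p1, g1, hM, hM]
    simp only [Matrix.cons_val_zero, Matrix.cons_val_one]
    ring
  have hq2 : ∀ y, y 1 * M 1 0 y + y 2 * M 1 1 y = S.T (ψ y) (ψ y) p2 := by
    intro y
    rw [← hT y p2, g2, hM, hM]
    simp only [Matrix.cons_val_zero, Matrix.cons_val_one]
    ring
  let B : (Fin 3 → ℂ) →ₗ[ℂ] (Fin 3 → ℂ) →ₗ[ℂ] ℂ := (S.T k).compl₁₂ ψ ψ
  have hB : ∀ y, B y y = S.T (ψ y) (ψ y) k := by
    intro y
    change S.T k (ψ y) (ψ y) = _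
    rw [S.cyc]
  -- the value on Q
  have hexp : ∀ y, S.T (ψ y) (ψ y) (A (ψ y)) =
      e.repr (A (ψ y)) (Sum.inr 0) * S.T (ψ y) (ψ y) p1 +
      e.repr (A (ψ y)) (Sum.inr 1) * S.T (ψ y) (ψ y) p2 +
      e.repr (A (ψ y)) (Sum.inr 2) * S.T (ψ y) (ψ y) k := by
    intro y
    have h6 := congrArg (S.T (ψ y) (ψ y)) (e.sum_repr (A (ψ y)))
    rw [Fintype.sum_sum_type, Fin.sum_univ_three, Fin.sum_univ_three] at h6
    simp only [map_add, map_smul, smul_eq_mul, ho, hp1, hp2, hu, hv, hk,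
      hQ.2.two (hψQ y) hoQ, hQ.2.two (hψQ y) huQ, hQ.2.two (hψQ y) hvQ, mul_zero, zero_add,
      add_zero] at h6
    rw [← h6]
  set a1 := S.T o u p1
  set b1 := S.T o v p1
  set c1 := S.T u u p1
  set d1 := S.T u v p1
  set f1 := S.T v v p1
  set a2 := S.T o u p2
  set b2 := S.T o v p2
  set c2 := S.T u u p2
  set d2 := S.T u v p2
  set f2 := S.T v v p2
  set a3 := S.T o u k
  set b3 := S.T o v k
  set c3 := S.T u u k
  set d3 := S.T u v k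
  set f3 := S.T v v k
  set g := S.T o o k
  have hM00 : ∀ y, M 0 0 y = 2 * y 0 * a1 + y 1 * c1 + y 2 * d1 := by
    intro y
    rw [hM, hψ']
    simp only [Matrix.cons_val_zero]
    rw [tri_exp, S.s23 o p1 u, S.s23 u p1 u, S.s23 v p1 u, S.s12 v u p1]
  have hM01 : ∀ y, M 0 1 y = 2 * y 0 * b1 + y 1 * d1 + y 2 * f1 := by
    intro y
    rw [hM, hψ']
    simp only [Matrix.cons_val_zero, Matrix.cons_val_one]
    rw [tri_exp, S.s23 o p1 v, S.s23 u p1 v, S.s23 v p1 v]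
  have hM10 : ∀ y, M 1 0 y = 2 * y 0 * a2 + y 1 * c2 + y 2 * d2 := by
    intro y
    rw [hM, hψ']
    simp only [Matrix.cons_val_zero, Matrix.cons_val_one]
    rw [tri_exp, S.s23 o p2 u, S.s23 u p2 u, S.s23 v p2 u, S.s12 v u p2]
  have hM11 : ∀ y, M 1 1 y = 2 * y 0 * b2 + y 1 * d2 + y 2 * f2 := by
    intro y
    rw [hM, hψ']
    simp only [Matrix.cons_val_zero, Matrix.cons_val_one]
    rw [tri_exp, S.s23 o p2 v, S.s23 u p2 v, S.s23 v p2 v]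
  have hD' : ∀ y, dl S e (ψ y) = (Matrix.of ![![2 * (y 1 * a1 + y 2 * b1),
        2 * (y 1 * a2 + y 2 * b2), 2 * (y 0 * g + y 1 * a3 + y 2 * b3)],
      ![2 * (y 0 * a1 + y 1 * c1 + y 2 * d1), 2 * (y 0 * a2 + y 1 * c2 + y 2 * d2),
        2 * (y 0 * a3 + y 1 * c3 + y 2 * d3)],
      ![2 * (y 0 * b1 + y 1 * d1 + y 2 * f1), 2 * (y 0 * b2 + y 1 * d2 + y 2 * f2),
        2 * (y 0 * b3 + y 1 * d3 + y 2 * f3)]] : Matrix (Fin 3) (Fin 3) ℂ).det := by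
    intro y
    have hE : ∀ b k, S.T (ψ y + ψ y) b k =
        2 * (y 0 * S.T o b k + y 1 * S.T u b k + y 2 * S.T v b k) := by
      intro b k
      rw [← tri_exp, ← hψ, map_add, LinearMap.add_apply, LinearMap.add_apply]
      ring
    unfold dl dt
    rw [prj_of_mem hQ.1 he (hψQ y), Matrix.det_fin_three, Matrix.det_fin_three]
    simp only [Matrix.of_apply, Matrix.cons_val_zero, Matrix.cons_val_one, Matrix.cons_val, hE,
      ho, hp1, hp2, hu, hv, hk, g1, g2, S.s12 u o, S.s12 v o, S.s12 v u, mul_zero, zero_add]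
    rfl
  let X : Fin 3 → ((Fin 3 → ℂ) →ₗ[ℂ] ℂ) := fun i => LinearMap.proj i
  let L : Fin 3 → ((Fin 3 → ℂ) →ₗ[ℂ] ℂ) := ![
    (-24 * a2 * b3 + 24 * b2 * a3 - 8 * a3 * b2 + 8 * b3 * a2) • X 0
      + (-8 * a2 * d3 + 8 * b2 * c3 - 8 * c2 * b3 + 8 * d2 * a3 - 4 * a3 * d2 + 4 * b3 * c2) • X 1
      + (-8 * a2 * f3 + 8 * b2 * d3 - 8 * d2 * b3 + 8 * f2 * a3 - 4 * a3 * f2 + 4 * b3 * d2) • X 2,
    (24 * a1 * b3 - 24 * b1 * a3 + 8 * a3 * b1 - 8 * b3 * a1) • X 0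
      + (8 * a1 * d3 - 8 * b1 * c3 + 8 * c1 * b3 - 8 * d1 * a3 + 4 * a3 * d1 - 4 * b3 * c1) • X 1
      + (8 * a1 * f3 - 8 * b1 * d3 + 8 * d1 * b3 - 8 * f1 * a3 + 4 * a3 * f1 - 4 * b3 * d1) • X 2,
    (-24 * a1 * b2 + 24 * b1 * a2) • X 0
      + (-8 * a1 * d2 + 8 * b1 * c2 - 8 * c1 * b2 + 8 * d1 * a2) • X 1
      + (-8 * a1 * f2 + 8 * b1 * d2 - 8 * d1 * b2 + 8 * f1 * a2) • X 2]
  have hL0 : ∀ y, L 0 y = (-24 * a2 * b3 + 24 * b2 * a3 - 8 * a3 * b2 + 8 * b3 * a2) * y 0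
      + (-8 * a2 * d3 + 8 * b2 * c3 - 8 * c2 * b3 + 8 * d2 * a3 - 4 * a3 * d2 + 4 * b3 * c2) * y 1
      + (-8 * a2 * f3 + 8 * b2 * d3 - 8 * d2 * b3 + 8 * f2 * a3 - 4 * a3 * f2 + 4 * b3 * d2) *
        y 2 := fun y => rfl
  have hL1 : ∀ y, L 1 y = (24 * a1 * b3 - 24 * b1 * a3 + 8 * a3 * b1 - 8 * b3 * a1) * y 0
      + (8 * a1 * d3 - 8 * b1 * c3 + 8 * c1 * b3 - 8 * d1 * a3 + 4 * a3 * d1 - 4 * b3 * c1) * y 1
      + (8 * a1 * f3 - 8 * b1 * d3 + 8 * d1 * b3 - 8 * f1 * a3 + 4 * a3 * f1 - 4 * b3 * d1) *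
        y 2 := fun y => rfl
  have hL2 : ∀ y, L 2 y = (-24 * a1 * b2 + 24 * b1 * a2) * y 0
      + (-8 * a1 * d2 + 8 * b1 * c2 - 8 * c1 * b2 + 8 * d1 * a2) * y 1
      + (-8 * a1 * f2 + 8 * b1 * d2 - 8 * d1 * b2 + 8 * f1 * a2) * y 2 := fun y => rfl
  let l : Fin 3 → ((Fin 3 → ℂ) →ₗ[ℂ] ℂ) := ![
    (8 * g)⁻¹ • ((e.coord (Sum.inr 0)).comp (A.comp ψ) - L 0 - (4 * a3) • M 1 1 +
      (4 * b3) • M 1 0),
    (8 * g)⁻¹ • ((e.coord (Sum.inr 1)).comp (A.comp ψ) - L 1 + (4 * a3) • M 0 1 -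
      (4 * b3) • M 0 0),
    (8 * g)⁻¹ • ((e.coord (Sum.inr 2)).comp (A.comp ψ) - L 2)]
  refine H11.socle M B ?_ l ?_
  · intro y e1 e2 e3
    rw [hq1] at e1
    rw [hq2] at e2
    rw [hB] at e3
    exact hψ0 y (hbas (ψ y) (hψQ y) e1 e2 e3)
  · intro y
    have hl0 : l 0 y = (8 * g)⁻¹ * (e.repr (A (ψ y)) (Sum.inr 0) - L 0 y - (4 * a3) * M 1 1 y +
      (4 * b3) * M 1 0 y) := rfl
    have hl1 : l 1 y = (8 * g)⁻¹ * (e.repr (A (ψ y)) (Sum.inr 1) - L 1 y + (4 * a3) * M 0 1 y -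
      (4 * b3) * M 0 0 y) := rfl
    have hl2 : l 2 y = (8 * g)⁻¹ * (e.repr (A (ψ y)) (Sum.inr 2) - L 2 y) := rfl
    have h7 : dl S e (ψ y) = S.T (ψ y) (ψ y) (A (ψ y)) := hA (ψ y) (hψQ y)
    have hdet := det_two (y 0) (y 1) (y 2) a1 b1 c1 d1 f1 a2 b2 c2 d2 f2 a3 b3 c3 d3 f3 g
    rw [← hD', ← hL0, ← hL1, ← hL2, ← hM00, ← hM01, ← hM10, ← hM11] at hdet
    have Q1 : y 1 ^ 2 * c1 + y 2 ^ 2 * f1 + 2 * y 0 * y 1 * a1 + 2 * y 0 * y 2 * b1 +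
        2 * y 1 * y 2 * d1 = y 1 * M 0 0 y + y 2 * M 0 1 y := by
      rw [hM00, hM01]
      ring
    have Q2 : y 1 ^ 2 * c2 + y 2 ^ 2 * f2 + 2 * y 0 * y 1 * a2 + 2 * y 0 * y 2 * b2 +
        2 * y 1 * y 2 * d2 = y 1 * M 1 0 y + y 2 * M 1 1 y := by
      rw [hM10, hM11]
      ring
    have Q3 : y 0 ^ 2 * g + y 1 ^ 2 * c3 + y 2 ^ 2 * f3 + 2 * y 0 * y 1 * a3 +
        2 * y 0 * y 2 * b3 + 2 * y 1 * y 2 * d3 = B y y := by
      rw [hB, hψ, quad_exp]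
    rw [Q1, Q2, Q3] at hdet
    rw [h7, hexp, ← hq1, ← hq2, ← hB] at hdet
    rw [hl0, hl1, hl2]
    have h8 : (8 : ℂ) * g ≠ 0 := mul_ne_zero (by norm_num) hg
    field_simp
    linear_combination -hdet

end Vale.Agent.P287.R2.H62
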