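import Mathlib

/-!
P287 (helper62, row S2a of helper992, second pen): four linear forms in two variables whose cubes
sum to zero pair up.
-/

namespace Vale.Agent.P287.R2.H62

open Module Submodule

variable {W : Type*} [AddCommGroup W] [Module ℂ W]

lemma cubes_pol (y : Fin 4 → W →ₗ[ℂ] ℂ) (h : ∀ x, ∑ i, y i x ^ 3 = 0) (u v w : W) :
    ∑ i, y i u * y i v * y i w = 0 := by
  have h1 := h (u + v + w)
  have h2 := h (u + v)
  have h3 := h (u + w)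
  have h4 := h (v + w)
  have h5 := h u
  have h6 := h v
  have h7 := h w
  simp only [map_add, Fin.sum_univ_four] at h1 h2 h3 h4 h5 h6 h7 ⊢
  linear_combination (1 / 6 : ℂ) * (h1 - h2 - h3 - h4 + h5 + h6 + h7)

lemma cubes_pair (y : Fin 4 → W →ₗ[ℂ] ℂ) (hinj : ∀ x, (∀ i, y i x = 0) → x = 0)
    (h : ∀ x, ∑ i, y i x ^ 3 = 0) (σ : Equiv.Perm (Fin 4)) (x : W) (hx : x ≠ 0)
    (h0 : y (σ 0) x = 0) (h1 : y (σ 1) x = 0) :
    (∀ x, y (σ 0) x ^ 3 + y (σ 1) x ^ 3 = 0) ∧ ∀ x, y (σ 2) x ^ 3 + y (σ 3) x ^ 3 = 0 := by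
  have hsum : ∀ f : Fin 4 → ℂ, ∑ k, f k = f (σ 0) + f (σ 1) + f (σ 2) + f (σ 3) := by
    intro f
    rw [← Equiv.sum_comp σ f, Fin.sum_univ_four]
  have hc : y (σ 2) x ^ 3 + y (σ 3) x ^ 3 = 0 := by
    have h2 := h x
    rw [hsum, h0, h1] at h2
    linear_combination h2
  have hne : y (σ 2) x ≠ 0 := by
    intro h2
    rw [h2] at hc
    have h3 : y (σ 3) x = 0 := by
      have : y (σ 3) x ^ 3 = 0 := by linear_combination hc
      exact (pow_eq_zero_iff (three_ne_zero)).mp this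
    apply hx
    apply hinj
    intro k
    obtain ⟨j, rfl⟩ := σ.surjective k
    fin_cases j
    · exact h0
    · exact h1
    · exact h2
    · exact h3
  have h23 : ∀ z, y (σ 2) z ^ 3 + y (σ 3) z ^ 3 = 0 := by
    intro z
    have hp := cubes_pol y h x x z
    rw [hsum, h0, h1] at hp
    have hp' : y (σ 2) x ^ 2 * y (σ 2) z + y (σ 3) x ^ 2 * y (σ 3) z = 0 := by
      linear_combination hp
    have h4 : y (σ 2) x ^ 6 * (y (σ 2) z ^ 3 + y (σ 3) z ^ 3) = 0 := by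
      linear_combination ((y (σ 2) x ^ 2 * y (σ 2) z) ^ 2 -
        (y (σ 2) x ^ 2 * y (σ 2) z) * (y (σ 3) x ^ 2 * y (σ 3) z) +
        (y (σ 3) x ^ 2 * y (σ 3) z) ^ 2) * hp' +
        (y (σ 2) x ^ 3 - y (σ 3) x ^ 3) * y (σ 3) z ^ 3 * hc
    exact (mul_eq_zero.mp h4).resolve_left (pow_ne_zero 6 hne)
  refine ⟨fun z => ?_, h23⟩
  have h2 := h z
  rw [hsum] at h2
  linear_combination h2 - h23 z

/-- **Row S2a.** -/
theorem row_S2a [FiniteDimensional ℂ W]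
    (hW : finrank ℂ W = 2) (y : Fin 4 → W →ₗ[ℂ] ℂ) (hinj : ∀ x, (∀ i, y i x = 0) → x = 0)
    (h : ∀ x, ∑ i, y i x ^ 3 = 0) :
    ∃ σ : Equiv.Perm (Fin 4), (∀ x, y (σ 0) x ^ 3 + y (σ 1) x ^ 3 = 0) ∧
      ∀ x, y (σ 2) x ^ 3 + y (σ 3) x ^ 3 = 0 := by
  have hex : ∀ i, ∃ x, x ≠ 0 ∧ y i x = 0 := by
    intro i
    have h1 : LinearMap.ker (y i) ≠ ⊥ :=
      LinearMap.ker_ne_bot_of_finrank_lt (by rw [hW, finrank_self]; norm_num)
    obtain ⟨x, hx, hx0⟩ := Submodule.exists_mem_ne_zero_of_ne_bot h1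
    exact ⟨x, hx0, hx⟩
  choose x hx0 hx using hex
  have hp := cubes_pol y h (x 1) (x 2) (x 3)
  rw [Fin.sum_univ_four, hx 1, hx 2, hx 3] at hp
  have hp' : y 0 (x 1) * y 0 (x 2) * y 0 (x 3) = 0 := by linear_combination hp
  rcases mul_eq_zero.mp hp' with h12 | h3
  · rcases mul_eq_zero.mp h12 with h1 | h2
    · exact ⟨1, cubes_pair y hinj h 1 (x 1) (hx0 1) h1 (hx 1)⟩
    · refine ⟨Equiv.swap 1 2, cubes_pair y hinj h (Equiv.swap 1 2) (x 2) (hx0 2) ?_ ?_⟩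
      · have e : Equiv.swap (1 : Fin 4) 2 0 = 0 := by decide
        rw [e]; exact h2
      · have e : Equiv.swap (1 : Fin 4) 2 1 = 2 := by decide
        rw [e]; exact hx 2
  · refine ⟨Equiv.swap 1 3, cubes_pair y hinj h (Equiv.swap 1 3) (x 3) (hx0 3) ?_ ?_⟩
    · have e : Equiv.swap (1 : Fin 4) 3 0 = 0 := by decide
      rw [e]; exact h3
    · have e : Equiv.swap (1 : Fin 4) 3 1 = 3 := by decide
      rw [e]; exact hx 3

end Vale.Agent.P287.R2.H62
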