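import Vale.Agent.P287.R2.H847.RowS1
import Vale.Agent.P287.R2.H11.Seven
import Vale.Agent.P287.R2.H62.RowS2a
import Vale.Agent.P287.R2.H62.RowS2b

/-!
P287 (helper62; rows of helper847, helper11, helper62): a cubic fourfold with 27 planes and no two
disjoint planes.
-/

namespace Vale.Agent.P287.R2.H62

open Module Submodule MvPolynomial
open Vale.Agent.P287.R2.H248

/-- Twenty-seven planes do not force two disjoint planes. -/
theorem sharp_27 : ∃ F : MvPolynomial (Fin 6) ℂ, IsCubicFourfold F ∧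
    (∃ s : Finset (Submodule ℂ A6), s.card = 27 ∧ ∀ P ∈ s, IsPlaneIn F P) ∧
    ∀ P Q, IsPlaneIn F P → IsPlaneIn F Q → ¬ Disjoint P Q := by
  refine ⟨G0, H847.S1.row_S1, H11.row_S3, ?_⟩
  intro P Q hP hQ hd
  have h := fun R hR => contains_e5 (fun W hW y h1 h2 => row_S2a hW y h1 h2) R hR
  have h1 : (Pi.single 5 1 : A6) ∈ P ⊓ Q := ⟨h P hP, h Q hQ⟩
  rw [disjoint_iff.mp hd, Submodule.mem_bot] at h1
  have h2 := congrFun h1 5
  simp at h2

end Vale.Agent.P287.R2.H62
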